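import Vale.Agent.P197.Potential

namespace Vale.Agent.P197

variable {X : Type*} [Fintype X] [DecidableEq X]

theorem H3_of_colStrict {mu : YoungDiagram} (t3 : Tableau mu X) (v : X → ℕ)
    (hstrict : ∀ x y, colOf t3 x = colOf t3 y → rowOf t3 x < rowOf t3 y → v x < v y) :
    ∀ g q : Equiv.Perm X, q ∈ colGroup t3 → act g (rowOf t3) = act q (rowOf t3) →
      act g v = v → q = 1 := by
  intro g q hq e1 e2
  have a1 : ∀ z, rowOf t3 (g⁻¹ z) = rowOf t3 (q⁻¹ z) := fun z => congrFun e1 z
  have a2 : ∀ z, v (g⁻¹ z) = v z := fun z => congrFun e2 z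
  have c1 := colOf_inv t3 hq
  obtain ⟨L, hL⟩ : ∃ L : ℕ, ∀ x, rowOf t3 x < L ∧ v x < L := by
    refine ⟨∑ x, (rowOf t3 x + v x) + 1, fun x => ?_⟩
    have := Finset.single_le_sum (f := fun x => rowOf t3 x + v x) (fun _ _ => Nat.zero_le _)
      (Finset.mem_univ x)
    omega
  set r : X → ℤ := fun x => (rowOf t3 x : ℤ) with hr
  set c : X → ℤ := fun x => (colOf t3 x : ℤ) with hc
  set w : X → ℤ := fun x => (v x : ℤ) with hw
  set f : X → ℤ := fun x => w x + L * c x with hf
  set gg : X → ℤ := fun x => r x + L * c x with hgg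
  have hr0 : ∀ x, 0 ≤ r x := fun x => Int.natCast_nonneg _
  have hw0 : ∀ x, 0 ≤ w x := fun x => Int.natCast_nonneg _
  have hrL : ∀ x, r x < L := fun x => by simp only [hr]; exact_mod_cast (hL x).1
  have hwL : ∀ x, w x < L := fun x => by simp only [hw]; exact_mod_cast (hL x).2
  have hstep : ∀ i j : X, colOf t3 j < colOf t3 i → (L : ℤ) * c j + L ≤ L * c i := by
    intro i j h
    have h' : c j + 1 ≤ c i := by
      simp only [hc]
      exact_mod_cast h
    have := mul_le_mul_of_nonneg_left h' (Int.natCast_nonneg L)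
    linarith
  have key : ∀ i j, gg j < gg i → f j < f i := by
    intro i j h
    simp only [hf, hgg] at h ⊢
    rcases lt_trichotomy (colOf t3 j) (colOf t3 i) with h1 | h1 | h1
    · have := hstep i j h1
      have := hwL j
      have := hw0 i
      linarith
    · have hcc : c j = c i := by simp only [hc]; exact_mod_cast h1
      rw [hcc] at h ⊢
      have hlt : rowOf t3 j < rowOf t3 i := by
        have : r j < r i := by linarith
        simp only [hr] at this
        exact_mod_cast this
      have : w j < w i := by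
        simp only [hw]
        exact_mod_cast hstrict j i h1 hlt
      linarith
    · have := hstep j i h1
      have := hrL i
      have := hr0 j
      linarith
  have mono1 : Monovary f gg := fun i j h => (key j i h).le
  have ggσ : ∀ x, gg (q⁻¹ x) = r (q⁻¹ x) + L * c x := by
    intro x
    simp only [hgg, hc, c1]
  have s1 : ∑ x, c x * r (q⁻¹ x) = ∑ x, c x * r x := by
    rw [← Equiv.sum_comp q⁻¹ (fun x => c x * r x)]
    exact Finset.sum_congr rfl (fun x _ => by simp only [hc, c1])
  have s2 : ∑ x, w x * r (q⁻¹ x) = ∑ x, w x * r x := by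
    rw [← Equiv.sum_comp g⁻¹ (fun x => w x * r x)]
    exact Finset.sum_congr rfl (fun x _ => by simp only [hw, hr, a1, a2])
  have e3 : ∑ x, f x * gg (q⁻¹ x) = ∑ x, f x * gg x := by
    have l1 : ∀ x, f x * gg (q⁻¹ x) =
        w x * r (q⁻¹ x) + L * (c x * r (q⁻¹ x)) + (w x + L * c x) * (L * c x) := by
      intro x
      rw [ggσ]
      simp only [hf]
      ring
    have l2 : ∀ x, f x * gg x =
        w x * r x + L * (c x * r x) + (w x + L * c x) * (L * c x) := by
      intro x
      simp only [hf, hgg]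
      ring
    simp only [l1, l2, Finset.sum_add_distrib, ← Finset.mul_sum, s1, s2]
  have mono2 : Monovary f (gg ∘ ⇑(q⁻¹)) := (mono1.sum_mul_comp_perm_eq_sum_mul_iff).mp e3
  have mono3 : Monovary gg (gg ∘ ⇑(q⁻¹)) := by
    intro i j h
    by_contra hcon
    have := key i j (not_le.mp hcon)
    have := mono2 h
    linarith
  have e4 : ∑ x, gg x * gg (q⁻¹ x) = ∑ x, gg x * gg x :=
    ((monovary_self gg).sum_mul_comp_perm_eq_sum_mul_iff).mpr mono3
  have e5 : ∑ x, gg (q⁻¹ x) * gg (q⁻¹ x) = ∑ x, gg x * gg x :=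
    Equiv.sum_comp q⁻¹ (fun x => gg x * gg x)
  have e6 : ∑ x, (gg x - gg (q⁻¹ x)) ^ 2 = 0 := by
    have l3 : ∀ x, (gg x - gg (q⁻¹ x)) ^ 2 =
        gg x * gg x - 2 * (gg x * gg (q⁻¹ x)) + gg (q⁻¹ x) * gg (q⁻¹ x) := by
      intro x
      ring
    simp only [l3, Finset.sum_add_distrib, Finset.sum_sub_distrib, ← Finset.mul_sum, e4, e5]
    ring
  have e7 := (Finset.sum_eq_zero_iff_of_nonneg (fun x _ => sq_nonneg _)).mp e6
  have hq1 : q⁻¹ = 1 := by
    ext x
    have h1 := e7 x (Finset.mem_univ _)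
    have h2 : gg x = gg (q⁻¹ x) := by
      have := pow_eq_zero_iff (two_ne_zero) |>.mp h1
      linarith
    rw [ggσ] at h2
    have h3 : r (q⁻¹ x) = r x := by
      simp only [hgg] at h2
      linarith
    have h4 : rowOf t3 (q⁻¹ x) = rowOf t3 x := by
      simp only [hr] at h3
      exact_mod_cast h3
    exact cell_ext t3 h4 (c1 x)
  exact inv_eq_one.mp hq1

end Vale.Agent.P197
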