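import Vale.Agent.P197.Defs

namespace Vale.Agent.P197

open scoped TensorProduct

variable {X : Type*}

theorem act_inv_act (g : Equiv.Perm X) (u : X → ℕ) : act g⁻¹ (act g u) = u := by
  rw [← act_mul, inv_mul_cancel, act_one]

theorem act_act_inv (g : Equiv.Perm X) (u : X → ℕ) : act g (act g⁻¹ u) = u := by
  rw [← act_mul, mul_inv_cancel, act_one]

theorem act_injective (g : Equiv.Perm X) : Function.Injective (act g) := by
  intro u v h
  have := congrArg (act g⁻¹) h
  simpa [act_inv_act] using this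

theorem labRep_apply (g : Equiv.Perm X) (x : (X → ℕ) →₀ ℂ) (u : X → ℕ) :
    labRep X g x u = x (act g⁻¹ u) := by
  have h : labRep X g x = Finsupp.mapDomain (act g) x := rfl
  rw [h]
  conv_lhs => rw [← act_act_inv g u]
  exact Finsupp.mapDomain_apply (act_injective g) x _

variable [Fintype X] [DecidableEq X]

theorem one_mem_colGroup {μ : YoungDiagram} (t : Tableau μ X) : (1 : Equiv.Perm X) ∈ colGroup t := by
  simp [colGroup]

theorem polytabloid_apply {μ : YoungDiagram} (t : Tableau μ X) (u : X → ℕ) :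
    polytabloid t u =
      ∑ q ∈ colGroup t, if act q (rowOf t) = u then ((Equiv.Perm.sign q : ℤ) : ℂ) else 0 := by
  unfold polytabloid
  rw [Finsupp.finsetSum_apply]
  refine Finset.sum_congr rfl ?_
  intro q _
  rw [Finsupp.smul_apply, Finsupp.single_apply]
  split_ifs <;> simp

theorem polytabloid_mem {μ : YoungDiagram} (t : Tableau μ X) :
    polytabloid t ∈ (spechtSub μ X).toSubmodule :=
  Submodule.subset_span ⟨t, rfl⟩

section crit

variable {l1 l2 mu : YoungDiagram} (t1 : Tableau l1 X) (t2 : Tableau l2 X) (t3 : Tableau mu X)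

def pairCount (k : Equiv.Perm X) : ℕ :=
  ∑ q1 ∈ colGroup t1, ∑ q2 ∈ colGroup t2,
    if act q1 (rowOf t1) = act k (rowOf t1) ∧ act q2 (rowOf t2) = act k (rowOf t2) then 1 else 0

theorem pairCount_one_pos : 0 < pairCount t1 t2 1 := by
  unfold pairCount
  refine Finset.sum_pos' (fun _ _ => Nat.zero_le _) ⟨1, one_mem_colGroup t1, ?_⟩
  refine Finset.sum_pos' (fun _ _ => Nat.zero_le _) ⟨1, one_mem_colGroup t2, ?_⟩
  simp

variable (v : X → ℕ)

theorem coef_mul_eq
    (H1 : ∀ g q1 q2 : Equiv.Perm X, q1 ∈ colGroup t1 → q2 ∈ colGroup t2 →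
      act g (rowOf t1) = act q1 (rowOf t1) → act g (rowOf t2) = act q2 (rowOf t2) →
      act g v = v ∧ Equiv.Perm.sign q1 = Equiv.Perm.sign q2) (k : Equiv.Perm X) :
    polytabloid t1 (act k (rowOf t1)) * polytabloid t2 (act k (rowOf t2)) =
      (pairCount t1 t2 k : ℂ) := by
  rw [polytabloid_apply, polytabloid_apply, Finset.sum_mul_sum]
  unfold pairCount
  push_cast
  refine Finset.sum_congr rfl (fun q1 h1 => Finset.sum_congr rfl (fun q2 h2 => ?_))
  by_cases a1 : act q1 (rowOf t1) = act k (rowOf t1)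
  · by_cases a2 : act q2 (rowOf t2) = act k (rowOf t2)
    · have hs := (H1 k q1 q2 h1 h2 a1.symm a2.symm).2
      rw [if_pos a1, if_pos a2, if_pos ⟨a1, a2⟩, hs]
      have : ((Equiv.Perm.sign q2 : ℤ)) * ((Equiv.Perm.sign q2 : ℤ)) = 1 := by
        rw [← Units.val_mul, Int.units_mul_self]; rfl
      exact_mod_cast this
    · simp [a2]
  · simp [a1]

theorem pairCount_eq_zero
    (H1 : ∀ g q1 q2 : Equiv.Perm X, q1 ∈ colGroup t1 → q2 ∈ colGroup t2 →
      act g (rowOf t1) = act q1 (rowOf t1) → act g (rowOf t2) = act q2 (rowOf t2) →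
      act g v = v ∧ Equiv.Perm.sign q1 = Equiv.Perm.sign q2) (k : Equiv.Perm X)
    (hk : act k v ≠ v) : pairCount t1 t2 k = 0 := by
  unfold pairCount
  refine Finset.sum_eq_zero (fun q1 h1 => Finset.sum_eq_zero (fun q2 h2 => ?_))
  rw [if_neg]
  rintro ⟨a1, a2⟩
  exact hk (H1 k q1 q2 h1 h2 a1.symm a2.symm).1

theorem coef3_eq
    (H3 : ∀ g q : Equiv.Perm X, q ∈ colGroup t3 → act g (rowOf t3) = act q (rowOf t3) →
      act g v = v → q = 1) (g : Equiv.Perm X) (hg : act g v = v) :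
    polytabloid t3 (act g (rowOf t3)) = if act g (rowOf t3) = rowOf t3 then 1 else 0 := by
  rw [polytabloid_apply, Finset.sum_eq_single_of_mem 1 (one_mem_colGroup t3)]
  · simp [act_one, eq_comm]
  · intro q hq hq1
    rw [if_neg]
    intro h
    exact hq1 (H3 g q hq h.symm hg)

noncomputable def tens : Representation ℂ (Equiv.Perm X)
    ((spechtSub l1 X).toSubmodule ⊗[ℂ] (spechtSub l2 X).toSubmodule) :=
  (spechtRep l1 X).tprod (spechtRep l2 X)

noncomputable def seed : (spechtSub l1 X).toSubmodule ⊗[ℂ] (spechtSub l2 X).toSubmodule :=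
  (⟨polytabloid t1, polytabloid_mem t1⟩ : (spechtSub l1 X).toSubmodule) ⊗ₜ[ℂ]
    (⟨polytabloid t2, polytabloid_mem t2⟩ : (spechtSub l2 X).toSubmodule)

noncomputable def bigMap (u3 : X → ℕ) :
    ((X → ℕ) →₀ ℂ) →ₗ[ℂ] ((spechtSub l1 X).toSubmodule ⊗[ℂ] (spechtSub l2 X).toSubmodule) :=
  ∑ g : Equiv.Perm X, (Finsupp.lapply (act g u3)).smulRight (tens (l1 := l1) (l2 := l2) g (seed t1 t2))

theorem bigMap_apply (u3 : X → ℕ) (x : (X → ℕ) →₀ ℂ) :
    bigMap t1 t2 u3 x = ∑ g : Equiv.Perm X, x (act g u3) • tens (l1 := l1) (l2 := l2) g (seed t1 t2) := by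
  simp [bigMap, LinearMap.sum_apply]

theorem bigMap_equivariant (u3 : X → ℕ) (h : Equiv.Perm X) (x : (X → ℕ) →₀ ℂ) :
    bigMap t1 t2 u3 (labRep X h x) = tens (l1 := l1) (l2 := l2) h (bigMap t1 t2 u3 x) := by
  rw [bigMap_apply, bigMap_apply, map_sum]
  refine Fintype.sum_equiv (Equiv.mulLeft h⁻¹) _ _ ?_
  intro g
  rw [labRep_apply, ← act_mul, map_smul, Equiv.coe_mulLeft, ← Module.End.mul_apply, ← map_mul,
    mul_inv_cancel_left]

noncomputable def evalFun (u1 u2 : X → ℕ) :
    ((spechtSub l1 X).toSubmodule ⊗[ℂ] (spechtSub l2 X).toSubmodule) →ₗ[ℂ] ℂ :=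
  LinearMap.mul' ℂ ℂ ∘ₗ TensorProduct.map
    (Finsupp.lapply u1 ∘ₗ (spechtSub l1 X).toSubmodule.subtype)
    (Finsupp.lapply u2 ∘ₗ (spechtSub l2 X).toSubmodule.subtype)

theorem evalFun_tens_seed (g : Equiv.Perm X) :
    evalFun (l1 := l1) (l2 := l2) (rowOf t1) (rowOf t2) (tens (l1 := l1) (l2 := l2) g (seed t1 t2)) =
      polytabloid t1 (act g⁻¹ (rowOf t1)) * polytabloid t2 (act g⁻¹ (rowOf t2)) := by
  simp only [evalFun, tens, seed, Representation.tprod_apply, TensorProduct.map_tmul,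
    LinearMap.comp_apply, LinearMap.mul'_apply, Submodule.subtype_apply, Finsupp.lapply_apply]
  rw [← labRep_apply, ← labRep_apply]
  rfl

theorem exists_intertwiner
    (H1 : ∀ g q1 q2 : Equiv.Perm X, q1 ∈ colGroup t1 → q2 ∈ colGroup t2 →
      act g (rowOf t1) = act q1 (rowOf t1) → act g (rowOf t2) = act q2 (rowOf t2) →
      act g v = v ∧ Equiv.Perm.sign q1 = Equiv.Perm.sign q2)
    (H3 : ∀ g q : Equiv.Perm X, q ∈ colGroup t3 → act g (rowOf t3) = act q (rowOf t3) →
      act g v = v → q = 1) :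
    ∃ f : Representation.IntertwiningMap (spechtRep mu X)
      ((spechtRep l1 X).tprod (spechtRep l2 X)), f ≠ 0 := by
  refine ⟨⟨bigMap t1 t2 (rowOf t3) ∘ₗ (spechtSub mu X).toSubmodule.subtype, ?_⟩, ?_⟩
  · intro g
    ext y
    exact bigMap_equivariant t1 t2 (rowOf t3) g y.1
  · intro hf
    have h0 : bigMap t1 t2 (rowOf t3) (polytabloid t3) = 0 := by
      have := congrArg (fun f : Representation.IntertwiningMap (spechtRep mu X)
        ((spechtRep l1 X).tprod (spechtRep l2 X)) => f ⟨polytabloid t3, polytabloid_mem t3⟩) hf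
      exact this
    have h1 := congrArg (evalFun (l1 := l1) (l2 := l2) (rowOf t1) (rowOf t2)) h0
    rw [bigMap_apply, map_sum, map_zero] at h1
    have h2 : ∀ g : Equiv.Perm X,
        evalFun (l1 := l1) (l2 := l2) (rowOf t1) (rowOf t2)
          (polytabloid t3 (act g (rowOf t3)) • tens (l1 := l1) (l2 := l2) g (seed t1 t2)) =
        (((if act g (rowOf t3) = rowOf t3 then pairCount t1 t2 g⁻¹ else 0 : ℕ)) : ℂ) := by
      intro g
      rw [map_smul, evalFun_tens_seed, coef_mul_eq t1 t2 v H1, smul_eq_mul]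
      by_cases hg : act g v = v
      · rw [coef3_eq t3 v H3 g hg]
        split_ifs <;> simp
      · have hg' : act g⁻¹ v ≠ v := by
          intro h
          apply hg
          conv_lhs => rw [← h]
          exact act_act_inv g v
        rw [pairCount_eq_zero t1 t2 v H1 g⁻¹ hg']
        simp
    rw [Finset.sum_congr rfl (fun g _ => h2 g), ← Nat.cast_sum, Nat.cast_eq_zero,
      Finset.sum_eq_zero_iff] at h1
    have h3 := h1 1 (Finset.mem_univ _)
    rw [if_pos (act_one _), inv_one] at h3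
    exact absurd h3 (pairCount_one_pos t1 t2).ne'

end crit

theorem finrank_pos_aux {G V W : Type*} [Group G] [AddCommGroup V] [AddCommGroup W]
    [Module ℂ V] [Module ℂ W] [Module.Finite ℂ V] [Module.Finite ℂ W]
    (ρ : Representation ℂ G V) (σ : Representation ℂ G W)
    (f : Representation.IntertwiningMap ρ σ) (hf : f ≠ 0) :
    0 < Module.finrank ℂ (Representation.IntertwiningMap ρ σ) :=
  Module.finrank_pos_iff_exists_ne_zero.mpr ⟨f, hf⟩

theorem kron_pos_of_intertwiner {n : ℕ} {l1 l2 mu : YoungDiagram}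
    (h : ∃ f : Representation.IntertwiningMap (spechtRep mu (Fin n))
      ((spechtRep l1 (Fin n)).tprod (spechtRep l2 (Fin n))), f ≠ 0) : 0 < kron n l1 l2 mu := by
  obtain ⟨f, hf⟩ := h
  unfold kron
  have hfin : ∀ nu : YoungDiagram, Module.Finite ℂ (spechtSub nu (Fin n)).toSubmodule := by
    intro nu
    exact Module.Finite.span_of_finite ℂ (Set.finite_range _)
  have h1 := hfin mu
  have h2 := hfin l1
  have h3 := hfin l2
  exact @finrank_pos_aux (Equiv.Perm (Fin n)) (spechtSub mu (Fin n)).toSubmodule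
    ((spechtSub l1 (Fin n)).toSubmodule ⊗[ℂ] (spechtSub l2 (Fin n)).toSubmodule) _
    (Submodule.addCommGroup _)
    (@TensorProduct.addCommGroup ℂ _ (spechtSub l1 (Fin n)).toSubmodule
        (spechtSub l2 (Fin n)).toSubmodule (Submodule.addCommGroup _) _ _ _) _ _ h1
    (Module.Finite.tensorProduct ℂ _ _)
    (spechtRep mu (Fin n)) ((spechtRep l1 (Fin n)).tprod (spechtRep l2 (Fin n))) f hf

end Vale.Agent.P197
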