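import Mathlib

namespace Vale.Agent.P197

variable {X : Type*}

def act (g : Equiv.Perm X) (u : X → ℕ) : X → ℕ := fun x => u (g⁻¹ x)

theorem act_one (u : X → ℕ) : act (1 : Equiv.Perm X) u = u := by
  funext x
  simp [act]

theorem act_mul (g h : Equiv.Perm X) (u : X → ℕ) : act (g * h) u = act g (act h u) := by
  funext x
  simp [act, mul_inv_rev]

noncomputable def labRep (X : Type*) : Representation ℂ (Equiv.Perm X) ((X → ℕ) →₀ ℂ) where
  toFun g := Finsupp.lmapDomain ℂ ℂ (act g)
  map_one' := by
    ext u v
    simp [act_one]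
  map_mul' g h := by
    ext u v
    simp [act_mul]

abbrev Tableau (μ : YoungDiagram) (X : Type*) := {c : ℕ × ℕ // c ∈ μ.cells} ≃ X

def rowOf {μ : YoungDiagram} (t : Tableau μ X) (x : X) : ℕ := (t.symm x).1.1

def colOf {μ : YoungDiagram} (t : Tableau μ X) (x : X) : ℕ := (t.symm x).1.2

theorem labRep_single (g : Equiv.Perm X) (u : X → ℕ) (c : ℂ) :
    labRep X g (Finsupp.single u c) = Finsupp.single (act g u) c := by
  simp [labRep]

theorem rowOf_trans {μ : YoungDiagram} (t : Tableau μ X) (g : Equiv.Perm X) :
    rowOf (t.trans g) = act g (rowOf t) := by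
  funext x
  simp [rowOf, act, Equiv.Perm.inv_def]

theorem colOf_trans {μ : YoungDiagram} (t : Tableau μ X) (g : Equiv.Perm X) :
    colOf (t.trans g) = act g (colOf t) := by
  funext x
  simp [colOf, act, Equiv.Perm.inv_def]

variable [Fintype X] [DecidableEq X]

def colGroup {μ : YoungDiagram} (t : Tableau μ X) : Finset (Equiv.Perm X) :=
  Finset.univ.filter (fun q => ∀ x, colOf t (q x) = colOf t x)

noncomputable def polytabloid {μ : YoungDiagram} (t : Tableau μ X) : (X → ℕ) →₀ ℂ :=
  ∑ q ∈ colGroup t, ((Equiv.Perm.sign q : ℤ) : ℂ) • Finsupp.single (act q (rowOf t)) (1 : ℂ)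

theorem labRep_polytabloid {μ : YoungDiagram} (t : Tableau μ X) (g : Equiv.Perm X) :
    labRep X g (polytabloid t) = polytabloid (t.trans g) := by
  unfold polytabloid
  rw [map_sum]
  refine Finset.sum_bij (fun q _ => g * q * g⁻¹) ?_ ?_ ?_ ?_
  · intro q hq
    simp only [colGroup, Finset.mem_filter, Finset.mem_univ, true_and] at hq ⊢
    intro x
    simp only [colOf_trans, act]
    simpa using hq (g⁻¹ x)
  · intro a _ b _ h
    simpa using h
  · intro q hq
    refine ⟨g⁻¹ * q * g, ?_, by group⟩
    simp only [colGroup, Finset.mem_filter, Finset.mem_univ, true_and] at hq ⊢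
    intro x
    have := hq (g x)
    simp only [colOf_trans, act] at this
    simpa using this
  · intro q _
    rw [map_smul, labRep_single, rowOf_trans, ← act_mul, ← act_mul]
    have hs : Equiv.Perm.sign (g * q * g⁻¹) = Equiv.Perm.sign q := by
      rw [Equiv.Perm.sign_mul, Equiv.Perm.sign_mul, Equiv.Perm.sign_inv, mul_comm, ← mul_assoc,
        Int.units_mul_self, one_mul]
    rw [hs]
    congr 3
    group

noncomputable def spechtSub (μ : YoungDiagram) (X : Type*) [Fintype X] [DecidableEq X] :
    Subrepresentation (labRep X) where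
  toSubmodule := Submodule.span ℂ (Set.range (fun t : Tableau μ X => polytabloid t))
  apply_mem_toSubmodule g v hv := by
    induction hv using Submodule.span_induction with
    | mem x hx =>
      obtain ⟨t, rfl⟩ := hx
      rw [labRep_polytabloid]
      exact Submodule.subset_span ⟨_, rfl⟩
    | zero => simp
    | add x y _ _ hx hy => rw [map_add]; exact Submodule.add_mem _ hx hy
    | smul a x _ hx => rw [map_smul]; exact Submodule.smul_mem _ _ hx

noncomputable def spechtRep (μ : YoungDiagram) (X : Type*) [Fintype X] [DecidableEq X] :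
    Representation ℂ (Equiv.Perm X) (spechtSub μ X).toSubmodule :=
  (spechtSub μ X).toRepresentation

noncomputable def kron (n : ℕ) (lam mu nu : YoungDiagram) : ℕ :=
  Module.finrank ℂ (Representation.IntertwiningMap (spechtRep nu (Fin n))
    ((spechtRep lam (Fin n)).tprod (spechtRep mu (Fin n))))

end Vale.Agent.P197
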