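import Mathlib

namespace Vale.Agent.P197

def phi (J : Finset ℕ) (A : ℕ → Finset ℕ) (f : ℕ → ℕ) : ℕ := ∑ j ∈ J, ∑ s ∈ A j, f s

def swapSet (S : Finset ℕ) (a b : ℕ) : Finset ℕ := insert b (S.erase a)

theorem sum_swapSet {S : Finset ℕ} {a b : ℕ} (ha : a ∈ S) (hb : b ∉ S) (f : ℕ → ℕ) :
    ∑ s ∈ swapSet S a b, f s + f a = ∑ s ∈ S, f s + f b := by
  unfold swapSet
  rw [Finset.sum_insert (fun h => hb (Finset.mem_of_mem_erase h)), ← Finset.add_sum_erase S f ha]
  ring

theorem card_swapSet {S : Finset ℕ} {a b : ℕ} (ha : a ∈ S) (hb : b ∉ S) :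
    (swapSet S a b).card = S.card := by
  have := sum_swapSet ha hb (fun _ => 1)
  simpa using this

theorem phi_update {J : Finset ℕ} {A : ℕ → Finset ℕ} {j0 a b : ℕ} (hj : j0 ∈ J) (ha : a ∈ A j0)
    (hb : b ∉ A j0) (f : ℕ → ℕ) :
    phi J (Function.update A j0 (swapSet (A j0) a b)) f + f a = phi J A f + f b := by
  unfold phi
  rw [← Finset.add_sum_erase J _ hj, ← Finset.add_sum_erase J (fun j => ∑ s ∈ A j, f s) hj]
  have h1 : ∑ j ∈ J.erase j0, ∑ s ∈ Function.update A j0 (swapSet (A j0) a b) j, f s =
      ∑ j ∈ J.erase j0, ∑ s ∈ A j, f s := by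
    refine Finset.sum_congr rfl (fun j hj' => ?_)
    rw [Function.update_of_ne (Finset.ne_of_mem_erase hj')]
  rw [h1, Function.update_self]
  have := sum_swapSet ha hb f
  omega

def hgt (J : Finset ℕ) (A : ℕ → Finset ℕ) (k : ℕ) : ℕ := phi J A (fun s => if s < k then 1 else 0)

def cnt (J : Finset ℕ) (A : ℕ → Finset ℕ) (k : ℕ) : ℕ := phi J A (fun s => if s = k then 1 else 0)

theorem hgt_zero (J : Finset ℕ) (A : ℕ → Finset ℕ) : hgt J A 0 = 0 := by
  simp [hgt, phi]

theorem hgt_succ (J : Finset ℕ) (A : ℕ → Finset ℕ) (k : ℕ) :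
    hgt J A (k + 1) = hgt J A k + cnt J A k := by
  unfold hgt cnt phi
  rw [← Finset.sum_add_distrib]
  refine Finset.sum_congr rfl (fun j _ => ?_)
  rw [← Finset.sum_add_distrib]
  refine Finset.sum_congr rfl (fun s _ => ?_)
  simp only
  split_ifs <;> omega

theorem hgt_eq_sum (J : Finset ℕ) (A : ℕ → Finset ℕ) (k : ℕ) :
    hgt J A k = ∑ i ∈ Finset.range k, cnt J A i := by
  induction k with
  | zero => simp [hgt_zero]
  | succ k ih => rw [hgt_succ, Finset.sum_range_succ, ih]

theorem cnt_eq (J : Finset ℕ) (A : ℕ → Finset ℕ) (k : ℕ) :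
    cnt J A k = ∑ j ∈ J, if k ∈ A j then 1 else 0 := by
  unfold cnt phi
  refine Finset.sum_congr rfl (fun j _ => ?_)
  rw [Finset.sum_ite_eq']

theorem hgt_of_le {J : Finset ℕ} {A : ℕ → Finset ℕ} {K k : ℕ}
    (hA : ∀ j ∈ J, A j ⊆ Finset.range K) (hk : K ≤ k) : hgt J A k = hgt J A K := by
  unfold hgt phi
  refine Finset.sum_congr rfl (fun j hj => Finset.sum_congr rfl (fun s hs => ?_))
  have := Finset.mem_range.mp (hA j hj hs)
  simp only
  rw [if_pos (by omega), if_pos this]

theorem gr_aux (J : Finset ℕ) (α : ℕ → ℕ) (hα : Antitone α) (K : ℕ) :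
    ∀ n : ℕ, ∀ A : ℕ → Finset ℕ, (∀ j ∈ J, A j ⊆ Finset.range K) →
      (∀ k, ∑ i ∈ Finset.range k, α i ≤ hgt J A k) →
      (∑ i ∈ Finset.range K, α i = hgt J A K) →
      phi J A (fun s => K - s) = n →
      ∃ A' : ℕ → Finset ℕ, (∀ j, (A' j).card = (A j).card) ∧ ∀ k, cnt J A' k = α k := by
  intro n
  induction n using Nat.strong_induction_on with
  | _ n ih =>
    intro A hA hdom htot hn
    by_cases hall : ∀ k, hgt J A k = ∑ i ∈ Finset.range k, α i
    · refine ⟨A, fun _ => rfl, fun k => ?_⟩
      have h1 := hall (k + 1)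
      rw [hgt_succ, Finset.sum_range_succ, hall k] at h1
      omega
    · push Not at hall
      obtain ⟨k1, hk1, hmin⟩ : ∃ k1, hgt J A k1 ≠ ∑ i ∈ Finset.range k1, α i ∧
          ∀ k < k1, hgt J A k = ∑ i ∈ Finset.range k, α i :=
        ⟨Nat.find hall, Nat.find_spec hall, fun k hk => not_not.mp (Nat.find_min hall hk)⟩
      cases k1 with
      | zero => simp [hgt_zero] at hk1
      | succ a =>
        have h_a := hmin a (Nat.lt_succ_self a)
        have h_a1 : ∑ i ∈ Finset.range (a + 1), α i < hgt J A (a + 1) :=
          lt_of_le_of_ne (hdom _) (Ne.symm hk1)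
        have hKa : a + 1 < K := by
          by_contra hcon
          have h1 : K ≤ a + 1 := by omega
          have h2 := hgt_of_le hA h1
          have h3 : ∑ i ∈ Finset.range K, α i ≤ ∑ i ∈ Finset.range (a + 1), α i :=
            Finset.sum_le_sum_of_subset (Finset.range_mono h1)
          omega
        have hex : ∃ k, a + 1 < k ∧ hgt J A k = ∑ i ∈ Finset.range k, α i := ⟨K, hKa, htot.symm⟩
        obtain ⟨k2, ⟨hk2a, hk2b⟩, hmin2⟩ : ∃ k2,
            (a + 1 < k2 ∧ hgt J A k2 = ∑ i ∈ Finset.range k2, α i) ∧
            ∀ k < k2, ¬ (a + 1 < k ∧ hgt J A k = ∑ i ∈ Finset.range k, α i) :=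
          ⟨Nat.find hex, Nat.find_spec hex, fun k hk => Nat.find_min hex hk⟩
        have hk2K : k2 ≤ K := by
          by_contra hcon
          exact hmin2 K (by omega) ⟨hKa, htot.symm⟩
        obtain ⟨b, rfl⟩ : ∃ b, k2 = b + 1 := ⟨k2 - 1, by omega⟩
        have hab : a < b := by omega
        have hstrict : ∀ k, a + 1 ≤ k → k ≤ b → ∑ i ∈ Finset.range k, α i < hgt J A k := by
          intro k h1 h2
          rcases Nat.eq_or_lt_of_le h1 with h3 | h3
          · rw [← h3]; exact h_a1
          · refine lt_of_le_of_ne (hdom _) (fun h4 => hmin2 k (by omega) ⟨h3, h4.symm⟩)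
        have hca : α a < cnt J A a := by
          rw [hgt_succ, Finset.sum_range_succ] at h_a1
          omega
        have hcb : cnt J A b < α b := by
          rw [hgt_succ, Finset.sum_range_succ] at hk2b
          have := hstrict b (by omega) le_rfl
          omega
        have hαab : α b ≤ α a := hα hab.le
        obtain ⟨j0, hj0, ha, hb⟩ : ∃ j0 ∈ J, a ∈ A j0 ∧ b ∉ A j0 := by
          by_contra hcon
          push Not at hcon
          have : cnt J A a ≤ cnt J A b := by
            rw [cnt_eq, cnt_eq]
            refine Finset.sum_le_sum (fun j hj => ?_)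
            by_cases h1 : a ∈ A j
            · rw [if_pos h1, if_pos (hcon j hj h1)]
            · rw [if_neg h1]
              exact Nat.zero_le _
          omega
        have hrel : ∀ k, hgt J (Function.update A j0 (swapSet (A j0) a b)) k +
            (if a < k then 1 else 0) = hgt J A k + (if b < k then 1 else 0) :=
          fun k => phi_update hj0 ha hb _
        have hmeas := phi_update hj0 ha hb (fun s => K - s)
        obtain ⟨A'', hc, hcnt⟩ := ih (phi J (Function.update A j0 (swapSet (A j0) a b))
          (fun s => K - s)) (by omega) (Function.update A j0 (swapSet (A j0) a b)) (by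
            intro j hj
            by_cases hjj : j = j0
            · subst hjj
              rw [Function.update_self]
              unfold swapSet
              refine Finset.insert_subset (Finset.mem_range.mpr (by omega)) ?_
              exact (Finset.erase_subset _ _).trans (hA j hj)
            · rw [Function.update_of_ne hjj]
              exact hA j hj) (by
            intro k
            have h1 := hrel k
            by_cases h2 : a < k
            · by_cases h3 : b < k
              · rw [if_pos h2, if_pos h3] at h1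
                have := hdom k
                omega
              · rw [if_pos h2, if_neg h3] at h1
                have := hstrict k (by omega) (by omega)
                omega
            · rw [if_neg h2, if_neg (by omega)] at h1
              have := hdom k
              omega) (by
            have h1 := hrel K
            rw [if_pos (by omega), if_pos (by omega)] at h1
            omega) rfl
        refine ⟨A'', fun j => ?_, hcnt⟩
        rw [hc j]
        by_cases hjj : j = j0
        · subst hjj
          rw [Function.update_self]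
          exact card_swapSet ha hb
        · rw [Function.update_of_ne hjj]

end Vale.Agent.P197
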