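import Vale.Agent.P197.Exchange
import Vale.Agent.P197.Defs

namespace Vale.Agent.P197

def nthOf (S : Finset ℕ) (i : ℕ) : ℕ := if h : i < S.card then S.orderEmbOfFin rfl ⟨i, h⟩ else 0

theorem nthOf_mem {S : Finset ℕ} {i : ℕ} (h : i < S.card) : nthOf S i ∈ S := by
  unfold nthOf
  rw [dif_pos h]
  exact Finset.orderEmbOfFin_mem S rfl _

theorem nthOf_lt {S : Finset ℕ} {i i' : ℕ} (h : i < i') (h' : i' < S.card) :
    nthOf S i < nthOf S i' := by
  unfold nthOf
  rw [dif_pos h', dif_pos (h.trans h')]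
  exact (S.orderEmbOfFin rfl).strictMono (by simpa using h)

theorem nthOf_surj {S : Finset ℕ} {k : ℕ} (hk : k ∈ S) : ∃ i, i < S.card ∧ nthOf S i = k := by
  have h := Finset.range_orderEmbOfFin S rfl
  have hk' : k ∈ Set.range (S.orderEmbOfFin rfl) := by rw [h]; exact hk
  obtain ⟨i, hi⟩ := hk'
  refine ⟨i.1, i.2, ?_⟩
  unfold nthOf
  rw [dif_pos i.2]
  exact hi

theorem nthOf_inj {S : Finset ℕ} {i i' : ℕ} (h : i < S.card) (h' : i' < S.card)
    (he : nthOf S i = nthOf S i') : i = i' := by
  rcases lt_trichotomy i i' with h1 | h1 | h1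
  · have := nthOf_lt h1 h'
    omega
  · exact h1
  · have := nthOf_lt h1 h
    omega

theorem cnt_init (μ : YoungDiagram) (k : ℕ) :
    cnt (Finset.range (μ.rowLen 0)) (fun j => Finset.range (μ.colLen j)) k = μ.rowLen k := by
  rw [cnt_eq, ← Finset.card_filter]
  have : (Finset.range (μ.rowLen 0)).filter (fun j => k ∈ Finset.range (μ.colLen j)) =
      Finset.range (μ.rowLen k) := by
    ext j
    simp only [Finset.mem_filter, Finset.mem_range]
    rw [← YoungDiagram.mem_iff_lt_colLen, YoungDiagram.mem_iff_lt_rowLen]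
    have := μ.rowLen_anti 0 k (Nat.zero_le _)
    omega
  rw [this, Finset.card_range]

theorem sum_rowLen (μ : YoungDiagram) {K : ℕ} (hK : μ.colLen 0 ≤ K) :
    ∑ i ∈ Finset.range K, μ.rowLen i = μ.card := by
  unfold YoungDiagram.card
  rw [Finset.card_eq_sum_card_fiberwise (f := Prod.fst) (t := Finset.range K)]
  · refine Finset.sum_congr rfl (fun i _ => ?_)
    rw [YoungDiagram.rowLen_eq_card]
    rfl
  · intro c hc
    have hc' : (c.1, c.2) ∈ μ := hc
    have h0 : (c.1, 0) ∈ μ := μ.up_left_mem le_rfl (Nat.zero_le _) hc'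
    rw [YoungDiagram.mem_iff_lt_colLen] at h0
    simp only [Finset.coe_range, Set.mem_Iio]
    omega

theorem exists_family {X : Type*} [Fintype X] [DecidableEq X] (μ : YoungDiagram) (v : X → ℕ)
    (hcard : μ.card = Fintype.card X)
    (hanti : Antitone (fun k => (Finset.univ.filter (fun x => v x = k)).card))
    (hdom : ∀ k, ∑ i ∈ Finset.range k, (Finset.univ.filter (fun x => v x = i)).card ≤
      ∑ i ∈ Finset.range k, μ.rowLen i) :
    ∃ A : ℕ → Finset ℕ, (∀ j, (A j).card = μ.colLen j) ∧
      ∀ k, cnt (Finset.range (μ.rowLen 0)) A k = (Finset.univ.filter (fun x => v x = k)).card := by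
  have hh : ∀ k, hgt (Finset.range (μ.rowLen 0)) (fun j => Finset.range (μ.colLen j)) k =
      ∑ i ∈ Finset.range k, μ.rowLen i := by
    intro k
    rw [hgt_eq_sum]
    exact Finset.sum_congr rfl (fun i _ => cnt_init μ i)
  obtain ⟨A, h1, h2⟩ := gr_aux (Finset.range (μ.rowLen 0))
    (fun k => (Finset.univ.filter (fun x => v x = k)).card) hanti
    (μ.colLen 0 + ∑ x, v x + 1) _ (fun j => Finset.range (μ.colLen j))
    (by
      intro j _
      apply Finset.range_mono
      have := μ.colLen_anti 0 j (Nat.zero_le _)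
      omega)
    (by
      intro k
      rw [hh]
      exact hdom k)
    (by
      rw [hh, sum_rowLen μ (by omega), hcard, ← Finset.card_univ]
      symm
      apply Finset.card_eq_sum_card_fiberwise
      intro x _
      have := Finset.single_le_sum (f := v) (fun _ _ => Nat.zero_le _) (Finset.mem_univ x)
      simp only [Finset.coe_range, Set.mem_Iio]
      omega) rfl
  exact ⟨A, fun j => by rw [h1 j, Finset.card_range], h2⟩

theorem exists_tableau_of_dominance {X : Type*} [Fintype X] [DecidableEq X] (μ : YoungDiagram)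
    (v : X → ℕ) (hcard : μ.card = Fintype.card X)
    (hanti : Antitone (fun k => (Finset.univ.filter (fun x => v x = k)).card))
    (hdom : ∀ k, ∑ i ∈ Finset.range k, (Finset.univ.filter (fun x => v x = i)).card ≤
      ∑ i ∈ Finset.range k, μ.rowLen i) :
    ∃ t3 : Tableau μ X, ∀ x y, colOf t3 x = colOf t3 y → rowOf t3 x < rowOf t3 y → v x < v y := by
  obtain ⟨A, hA, hcnt⟩ := exists_family μ v hcard hanti hdom
  have hlt : ∀ c : {c : ℕ × ℕ // c ∈ μ.cells}, c.1.1 < (A c.1.2).card := by
    intro c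
    rw [hA, ← YoungDiagram.mem_iff_lt_colLen]
    exact c.2
  have hfib : ∀ k, Fintype.card {c : {c : ℕ × ℕ // c ∈ μ.cells} // nthOf (A c.1.2) c.1.1 = k} =
      Fintype.card {x : X // v x = k} := by
    intro k
    rw [Fintype.card_subtype (fun x => v x = k), ← hcnt k, cnt_eq, ← Finset.card_filter,
      ← Fintype.card_coe]
    refine Fintype.card_of_bijective (f := fun c => ⟨c.1.1.2, ?_⟩) ⟨?_, ?_⟩
    · rw [Finset.mem_filter, Finset.mem_range]
      constructor
      · have h0 : (0, c.1.1.2) ∈ μ := μ.up_left_mem (Nat.zero_le _) le_rfl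
          (show (c.1.1.1, c.1.1.2) ∈ μ from c.1.2)
        exact YoungDiagram.mem_iff_lt_rowLen.mp h0
      · have h3 := nthOf_mem (hlt c.1)
        have h4 := c.2
        rw [h4] at h3
        exact h3
    · intro c c' h
      have h2 : c.1.1.2 = c'.1.1.2 := congrArg Subtype.val h
      apply Subtype.ext
      apply Subtype.ext
      refine Prod.ext ?_ h2
      have e1 := c.2
      have e2 := c'.2
      have l1 := hlt c.1
      have l2 := hlt c'.1
      rw [h2] at e1 l1
      exact nthOf_inj l1 l2 (e1.trans e2.symm)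
    · intro j
      have hj := j.2
      rw [Finset.mem_filter] at hj
      obtain ⟨i, hi, hik⟩ := nthOf_surj hj.2
      have hmem : (i, j.1) ∈ μ.cells := by
        rw [YoungDiagram.mem_cells, YoungDiagram.mem_iff_lt_colLen, ← hA]
        exact hi
      exact ⟨⟨⟨(i, j.1), hmem⟩, hik⟩, rfl⟩
  let t3 : Tableau μ X := Equiv.ofFiberEquiv
    (f := fun c : {c : ℕ × ℕ // c ∈ μ.cells} => nthOf (A c.1.2) c.1.1) (g := v)
    (fun k => Fintype.equivOfCardEq (hfib k))
  have hv : ∀ c, v (t3 c) = nthOf (A c.1.2) c.1.1 := fun c => Equiv.ofFiberEquiv_map _ c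
  refine ⟨t3, fun x y hc hr => ?_⟩
  have hx := hv (t3.symm x)
  have hy := hv (t3.symm y)
  rw [Equiv.apply_symm_apply] at hx hy
  rw [hx, hy]
  have hc' : (t3.symm x).1.2 = (t3.symm y).1.2 := hc
  rw [hc']
  exact nthOf_lt hr (hlt _)

end Vale.Agent.P197
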