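import Mathlib

namespace Vale.Agent.P197

theorem two_sum_range_int (n : ℕ) :
    2 * ∑ i ∈ Finset.range n, ((0 : ℤ) + i) = (n : ℤ) * (n - 1) := by
  induction n with
  | zero => simp
  | succ n ih =>
    rw [Finset.sum_range_succ, mul_add, ih]
    push_cast
    ring

theorem sum_inj_ge {X : Type*} [DecidableEq X] (s : Finset X) (f : X → ℕ)
    (hf : Set.InjOn f s) : (s.card : ℤ) * (s.card - 1) ≤ 2 * ∑ x ∈ s, (f x : ℤ) := by
  have hinj : Set.InjOn (fun x => (f x : ℤ)) s := by
    intro a ha b hb h
    have h' : (f a : ℤ) = (f b : ℤ) := h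
    exact hf ha hb (by exact_mod_cast h')
  have h1 := Finset.sum_range_le_sum (s := s.image (fun x => (f x : ℤ))) (c := 0) (by
    intro x hx
    obtain ⟨y, _, rfl⟩ := Finset.mem_image.mp hx
    exact Int.natCast_nonneg _)
  rw [Finset.card_image_of_injOn hinj, Finset.sum_image hinj] at h1
  have h2 := two_sum_range_int s.card
  linarith

theorem level_preserved {X : Type*} [Fintype X] [DecidableEq X] (g : Equiv.Perm X)
    (lam a b : X → ℕ) (κ : ℕ)
    (h1 : ∀ x, κ ≤ lam x)
    (h2 : ∀ x, a x + b x + 1 ≤ lam x)
    (h3 : ∀ x, κ < lam x → (Finset.univ.filter (fun y => lam y = lam x)).card = lam x)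
    (h4 : ∀ x y, κ < lam x → lam x = lam y → a (g x) = a (g y) → x = y)
    (h5 : ∀ x y, κ < lam x → lam x = lam y → b (g x) = b (g y) → x = y) :
    ∀ x, lam (g x) = lam x := by
  set L : X → ℤ := fun x => (lam x : ℤ) with hL
  have key : 0 ≤ ∑ x, (L x - κ) * (L (g x) - L x) := by
    rw [← Finset.sum_fiberwise_of_maps_to (s := Finset.univ) (t := Finset.univ.image lam)
      (g := lam) (fun x _ => Finset.mem_image_of_mem _ (Finset.mem_univ x))]
    apply Finset.sum_nonneg
    intro l hl
    obtain ⟨x0, _, hx0⟩ := Finset.mem_image.mp hl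
    have e1 : ∑ x ∈ Finset.univ.filter (fun x => lam x = l), (L x - κ) * (L (g x) - L x) =
        ((l : ℤ) - κ) * ∑ x ∈ Finset.univ.filter (fun x => lam x = l), (L (g x) - l) := by
      rw [Finset.mul_sum]
      refine Finset.sum_congr rfl (fun x hx => ?_)
      have : lam x = l := (Finset.mem_filter.mp hx).2
      simp only [hL, this]
    rw [e1]
    rcases (h1 x0).eq_or_lt with hk | hk
    · have : (l : ℤ) - κ = 0 := by
        rw [← hx0, hk]
        ring
      rw [this, zero_mul]
    · have hkl : κ < l := hx0 ▸ hk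
      apply mul_nonneg
      · have : (κ : ℤ) < l := by exact_mod_cast hkl
        linarith
      · set s := Finset.univ.filter (fun x => lam x = l) with hs
        have hcard : s.card = l := by
          have := h3 x0 hk
          rw [hx0] at this
          exact this
        have ia : Set.InjOn (fun x => a (g x)) s := by
          intro x hx y hy hxy
          have hx' : lam x = l := (Finset.mem_filter.mp hx).2
          have hy' : lam y = l := (Finset.mem_filter.mp hy).2
          exact h4 x y (hx' ▸ hkl) (hx'.trans hy'.symm) hxy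
        have ib : Set.InjOn (fun x => b (g x)) s := by
          intro x hx y hy hxy
          have hx' : lam x = l := (Finset.mem_filter.mp hx).2
          have hy' : lam y = l := (Finset.mem_filter.mp hy).2
          exact h5 x y (hx' ▸ hkl) (hx'.trans hy'.symm) hxy
        have sa := sum_inj_ge s _ ia
        have sb := sum_inj_ge s _ ib
        rw [hcard] at sa sb
        have sc : ∑ x ∈ s, ((a (g x) : ℤ) + (b (g x) : ℤ) + 1) ≤ ∑ x ∈ s, L (g x) := by
          apply Finset.sum_le_sum
          intro x _
          have := h2 (g x)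
          simp only [hL]
          exact_mod_cast this
        rw [Finset.sum_add_distrib, Finset.sum_add_distrib, Finset.sum_const, hcard] at sc
        rw [Finset.sum_sub_distrib, Finset.sum_const, hcard]
        simp only [nsmul_eq_mul, mul_one] at sc ⊢
        nlinarith
  have s1 : ∑ x, L (g x) = ∑ x, L x := Equiv.sum_comp g L
  have s2 : ∑ x, L (g x) * L (g x) = ∑ x, L x * L x := Equiv.sum_comp g (fun x => L x * L x)
  have e2 : ∑ x, (L x - κ) * (L (g x) - L x) =
      ∑ x, L x * L (g x) - ∑ x, L x * L x - κ * (∑ x, L (g x) - ∑ x, L x) := by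
    rw [mul_sub, Finset.mul_sum, Finset.mul_sum, ← Finset.sum_sub_distrib,
      ← Finset.sum_sub_distrib, ← Finset.sum_sub_distrib]
    exact Finset.sum_congr rfl (fun x _ => by ring)
  have e3 : ∑ x, (L x - L (g x)) ^ 2 = 0 := by
    apply le_antisymm _ (Finset.sum_nonneg (fun x _ => sq_nonneg _))
    have : ∑ x, (L x - L (g x)) ^ 2 =
        ∑ x, L x * L x - 2 * ∑ x, L x * L (g x) + ∑ x, L (g x) * L (g x) := by
      rw [Finset.mul_sum, ← Finset.sum_sub_distrib, ← Finset.sum_add_distrib]
      exact Finset.sum_congr rfl (fun x _ => by ring)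
    rw [this, s2]
    rw [e2, s1] at key
    linarith
  intro x
  have := (Finset.sum_eq_zero_iff_of_nonneg (fun x _ => sq_nonneg _)).mp e3 x (Finset.mem_univ _)
  have h : L x - L (g x) = 0 := pow_eq_zero_iff (two_ne_zero) |>.mp this
  have h' : L (g x) = L x := by linarith
  simp only [hL] at h'
  exact_mod_cast h'

end Vale.Agent.P197
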