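import Vale.Agent.P197.Defs

namespace Vale.Agent.P197

variable {X : Type*}

theorem cell_mem {μ : YoungDiagram} (t : Tableau μ X) (x : X) : (rowOf t x, colOf t x) ∈ μ :=
  (YoungDiagram.mem_cells _).mp (t.symm x).2

theorem cell_ext {μ : YoungDiagram} (t : Tableau μ X) {x y : X} (hr : rowOf t x = rowOf t y)
    (hc : colOf t x = colOf t y) : x = y := by
  apply t.symm.injective
  apply Subtype.ext
  exact Prod.ext hr hc

variable [Fintype X] [DecidableEq X]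

theorem mem_colGroup {μ : YoungDiagram} (t : Tableau μ X) (q : Equiv.Perm X) :
    q ∈ colGroup t ↔ ∀ x, colOf t (q x) = colOf t x := by
  simp [colGroup]

theorem colOf_inv {μ : YoungDiagram} (t : Tableau μ X) {q : Equiv.Perm X} (hq : q ∈ colGroup t)
    (x : X) : colOf t (q⁻¹ x) = colOf t x := by
  have := (mem_colGroup t q).mp hq (q⁻¹ x)
  simpa using this.symm

theorem H1_of_potential {l1 l2 : YoungDiagram} (t1 : Tableau l1 X) (t2 : Tableau l2 X)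
    (v : X → ℕ) (F1 F2 : ℕ → ℕ → ℤ) (U U' : X → ℤ)
    (hle : ∀ x z, (rowOf t1 x, colOf t1 z) ∈ l1 → (rowOf t2 x, colOf t2 z) ∈ l2 →
      F1 (rowOf t1 x) (colOf t1 z) + F2 (rowOf t2 x) (colOf t2 z) ≤ U x + U' z)
    (heq : ∀ x, F1 (rowOf t1 x) (colOf t1 x) + F2 (rowOf t2 x) (colOf t2 x) = U x + U' x)
    (hv : ∀ x z, (rowOf t1 x, colOf t1 z) ∈ l1 → (rowOf t2 x, colOf t2 z) ∈ l2 →
      F1 (rowOf t1 x) (colOf t1 z) + F2 (rowOf t2 x) (colOf t2 z) = U x + U' z → v x = v z)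
    (hbar : ∀ x z, v x = v z → (rowOf t1 x = rowOf t1 z ∧ rowOf t2 x = rowOf t2 z) ∨
      (colOf t1 x = colOf t1 z ∧ colOf t2 x = colOf t2 z)) :
    ∀ g q1 q2 : Equiv.Perm X, q1 ∈ colGroup t1 → q2 ∈ colGroup t2 →
      act g (rowOf t1) = act q1 (rowOf t1) → act g (rowOf t2) = act q2 (rowOf t2) →
      act g v = v ∧ Equiv.Perm.sign q1 = Equiv.Perm.sign q2 := by
  intro g q1 q2 h1 h2 e1 e2
  have a1 : ∀ z, rowOf t1 (g⁻¹ z) = rowOf t1 (q1⁻¹ z) := fun z => congrFun e1 z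
  have a2 : ∀ z, rowOf t2 (g⁻¹ z) = rowOf t2 (q2⁻¹ z) := fun z => congrFun e2 z
  have c1 := colOf_inv t1 h1
  have c2 := colOf_inv t2 h2
  have m1 : ∀ z, (rowOf t1 (g⁻¹ z), colOf t1 z) ∈ l1 := by
    intro z
    rw [a1, ← c1 z]
    exact cell_mem t1 _
  have m2 : ∀ z, (rowOf t2 (g⁻¹ z), colOf t2 z) ∈ l2 := by
    intro z
    rw [a2, ← c2 z]
    exact cell_mem t2 _
  have hsum : ∑ z, (U (g⁻¹ z) + U' z -
      (F1 (rowOf t1 (g⁻¹ z)) (colOf t1 z) + F2 (rowOf t2 (g⁻¹ z)) (colOf t2 z))) = 0 := by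
    have s1 : ∑ z, U (g⁻¹ z) = ∑ z, U z := Equiv.sum_comp g⁻¹ U
    have s2 : ∑ z, F1 (rowOf t1 (g⁻¹ z)) (colOf t1 z) = ∑ z, F1 (rowOf t1 z) (colOf t1 z) := by
      rw [← Equiv.sum_comp q1⁻¹ (fun z => F1 (rowOf t1 z) (colOf t1 z))]
      exact Finset.sum_congr rfl (fun z _ => by rw [a1, c1])
    have s3 : ∑ z, F2 (rowOf t2 (g⁻¹ z)) (colOf t2 z) = ∑ z, F2 (rowOf t2 z) (colOf t2 z) := by
      rw [← Equiv.sum_comp q2⁻¹ (fun z => F2 (rowOf t2 z) (colOf t2 z))]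
      exact Finset.sum_congr rfl (fun z _ => by rw [a2, c2])
    have s4 : ∑ z, (F1 (rowOf t1 z) (colOf t1 z) + F2 (rowOf t2 z) (colOf t2 z)) =
        ∑ z, (U z + U' z) := Finset.sum_congr rfl (fun z _ => heq z)
    simp only [Finset.sum_sub_distrib, Finset.sum_add_distrib] at s4 ⊢
    rw [s1, s2, s3, s4]
    ring
  have hz := (Finset.sum_eq_zero_iff_of_nonneg (fun z _ => by
    have := hle (g⁻¹ z) z (m1 z) (m2 z)
    linarith)).mp hsum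
  have hgv : ∀ z, v (g⁻¹ z) = v z := by
    intro z
    apply hv (g⁻¹ z) z (m1 z) (m2 z)
    have := hz z (Finset.mem_univ _)
    linarith
  refine ⟨funext hgv, ?_⟩
  have hq : q1⁻¹ = q2⁻¹ := by
    ext z
    rcases hbar _ _ (hgv z) with ⟨r1, r2⟩ | ⟨k1, k2⟩
    · have z1 : q1⁻¹ z = z := cell_ext t1 (by rw [← a1, r1]) (c1 z)
      have z2 : q2⁻¹ z = z := cell_ext t2 (by rw [← a2, r2]) (c2 z)
      rw [z1, z2]
    · have z1 : q1⁻¹ z = g⁻¹ z := cell_ext t1 (a1 z).symm (by rw [c1, k1])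
      have z2 : q2⁻¹ z = g⁻¹ z := cell_ext t2 (a2 z).symm (by rw [c2, k2])
      rw [z1, z2]
  rw [inv_inj.mp hq]

end Vale.Agent.P197
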