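import Vale.Agent.P197.Seed
import Vale.Agent.P197.Potential
import Vale.Agent.P197.StairDefs

namespace Vale.Agent.P197

theorem perm_apply_inv {X : Type*} (p : Equiv.Perm X) (x : X) : p (p⁻¹ x) = x := by simp

theorem perm_inv_apply {X : Type*} (p : Equiv.Perm X) (x : X) : p⁻¹ (p x) = x := by simp

def posB (m b : ℕ) (c : ℕ × ℕ) : ℕ × ℕ :=
  if c.1 < b then (c.1, m - 1 - c.1 - c.2) else (b + (m - 1 - c.1 - c.2), c.1 - b)

theorem posB_mem {m b : ℕ} {c : ℕ × ℕ} (hc : c.1 + c.2 < m) :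
    (posB m b c).1 + (posB m b c).2 < m := by
  unfold posB
  split_ifs <;> simp only <;> omega

theorem posB_inj {m b : ℕ} {c c' : ℕ × ℕ} (hc : c.1 + c.2 < m) (hc' : c'.1 + c'.2 < m)
    (h : posB m b c = posB m b c') : c = c' := by
  unfold posB at h
  split_ifs at h <;> simp only [Prod.mk.injEq] at h <;> apply Prod.ext <;> omega

theorem mem_cells_stair {m : ℕ} {c : ℕ × ℕ} : c ∈ (staircase m).cells ↔ c.1 + c.2 < m := by
  rw [YoungDiagram.mem_cells]
  exact mem_staircase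

noncomputable def posBEquiv (m b : ℕ) :
    {c : ℕ × ℕ // c ∈ (staircase m).cells} ≃ {c : ℕ × ℕ // c ∈ (staircase m).cells} :=
  Equiv.ofBijective
    (fun c => ⟨posB m b c.1, mem_cells_stair.mpr (posB_mem (mem_cells_stair.mp c.2))⟩)
    (Finite.injective_iff_bijective.mp (by
      intro c c' h
      apply Subtype.ext
      exact posB_inj (mem_cells_stair.mp c.2) (mem_cells_stair.mp c'.2)
        (congrArg Subtype.val h)))

variable {X : Type*}

noncomputable def tabB {m : ℕ} (e : Tableau (staircase m) X) (b : ℕ) : Tableau (staircase m) X :=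
  (posBEquiv m b).symm.trans e

theorem rowOf_tabB {m : ℕ} (e : Tableau (staircase m) X) (b : ℕ) (x : X) :
    rowOf (tabB e b) x = (posB m b (rowOf e x, colOf e x)).1 := rfl

theorem colOf_tabB {m : ℕ} (e : Tableau (staircase m) X) (b : ℕ) (x : X) :
    colOf (tabB e b) x = (posB m b (rowOf e x, colOf e x)).2 := rfl

theorem stair_lt {m : ℕ} (e : Tableau (staircase m) X) (x : X) : rowOf e x + colOf e x < m :=
  mem_staircase.mp (cell_mem e x)

variable [Fintype X] [DecidableEq X]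

def rowLow {μ : YoungDiagram} (e : Tableau μ X) (b : ℕ) : Finset (Equiv.Perm X) :=
  Finset.univ.filter (fun p => ∀ x, rowOf e (p x) = rowOf e x ∧ (rowOf e x < b → p x = x))

def colLow {μ : YoungDiagram} (e : Tableau μ X) (b : ℕ) : Finset (Equiv.Perm X) :=
  Finset.univ.filter (fun p => ∀ x, colOf e (p x) = colOf e x ∧ (rowOf e x < b → p x = x))

section grp

variable {μ : YoungDiagram} (e : Tableau μ X) (b : ℕ)

theorem mem_rowLow {p : Equiv.Perm X} :
    p ∈ rowLow e b ↔ ∀ x, rowOf e (p x) = rowOf e x ∧ (rowOf e x < b → p x = x) := by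
  simp [rowLow]

theorem mem_colLow {p : Equiv.Perm X} :
    p ∈ colLow e b ↔ ∀ x, colOf e (p x) = colOf e x ∧ (rowOf e x < b → p x = x) := by
  simp [colLow]

theorem one_mem_rowLow : (1 : Equiv.Perm X) ∈ rowLow e b := by
  rw [mem_rowLow]
  intro x
  simp

theorem one_mem_colLow : (1 : Equiv.Perm X) ∈ colLow e b := by
  rw [mem_colLow]
  intro x
  simp

theorem mul_mem_rowLow {p p' : Equiv.Perm X} (h : p ∈ rowLow e b) (h' : p' ∈ rowLow e b) :
    p * p' ∈ rowLow e b := by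
  rw [mem_rowLow] at h h' ⊢
  intro x
  refine ⟨by rw [Equiv.Perm.mul_apply, (h _).1, (h' _).1], fun hx => ?_⟩
  rw [Equiv.Perm.mul_apply, (h' x).2 hx, (h x).2 hx]

theorem inv_mem_rowLow {p : Equiv.Perm X} (h : p ∈ rowLow e b) : p⁻¹ ∈ rowLow e b := by
  rw [mem_rowLow] at h ⊢
  intro x
  have h1 := (h (p⁻¹ x)).1
  rw [perm_apply_inv] at h1
  refine ⟨h1.symm, fun hx => ?_⟩
  have h2 := (h x).2 hx
  rw [Equiv.Perm.inv_eq_iff_eq]
  exact h2.symm

theorem mul_mem_colLow {p p' : Equiv.Perm X} (h : p ∈ colLow e b) (h' : p' ∈ colLow e b) :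
    p * p' ∈ colLow e b := by
  rw [mem_colLow] at h h' ⊢
  intro x
  refine ⟨by rw [Equiv.Perm.mul_apply, (h _).1, (h' _).1], fun hx => ?_⟩
  rw [Equiv.Perm.mul_apply, (h' x).2 hx, (h x).2 hx]

theorem inv_mem_colLow {p : Equiv.Perm X} (h : p ∈ colLow e b) : p⁻¹ ∈ colLow e b := by
  rw [mem_colLow] at h ⊢
  intro x
  have h1 := (h (p⁻¹ x)).1
  rw [perm_apply_inv] at h1
  refine ⟨h1.symm, fun hx => ?_⟩
  have h2 := (h x).2 hx
  rw [Equiv.Perm.inv_eq_iff_eq]
  exact h2.symm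

theorem act_rowLow {p : Equiv.Perm X} (h : p ∈ rowLow e b) : act p (rowOf e) = rowOf e := by
  funext x
  exact ((mem_rowLow e b).mp (inv_mem_rowLow e b h) x).1

theorem colLow_sub_colGroup {q : Equiv.Perm X} (h : q ∈ colLow e b) : q ∈ colGroup e :=
  (mem_colGroup e q).mpr (fun x => ((mem_colLow e b).mp h x).1)

noncomputable def zvec : (X → ℕ) →₀ ℂ := ∑ p ∈ rowLow e b, polytabloid (e.trans p)

theorem zvec_mem : zvec e b ∈ (spechtSub μ X).toSubmodule :=
  Submodule.sum_mem _ (fun p _ => polytabloid_mem (e.trans p))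

noncomputable def ell1 : ((X → ℕ) →₀ ℂ) →ₗ[ℂ] ℂ :=
  ∑ q ∈ colLow e b, ((Equiv.Perm.sign q : ℤ) : ℂ) • Finsupp.lapply (act q (rowOf e))

theorem ell1_apply (x : (X → ℕ) →₀ ℂ) :
    ell1 e b x = ∑ q ∈ colLow e b, ((Equiv.Perm.sign q : ℤ) : ℂ) * x (act q (rowOf e)) := by
  simp [ell1, LinearMap.sum_apply]

theorem labRep_zvec {h : Equiv.Perm X} (hh : h ∈ rowLow e b) :
    labRep X h (zvec e b) = zvec e b := by
  unfold zvec
  rw [map_sum]
  refine Finset.sum_bij (fun p _ => h * p) ?_ ?_ ?_ ?_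
  · intro p hp
    exact mul_mem_rowLow e b hh hp
  · intro p _ p' _ hpp
    exact mul_left_cancel hpp
  · intro p hp
    refine ⟨h⁻¹ * p, mul_mem_rowLow e b (inv_mem_rowLow e b hh) hp, by group⟩
  · intro p _
    rw [labRep_polytabloid]
    rfl

theorem ell1_labRep {h : Equiv.Perm X} (hh : h ∈ colLow e b) (x : (X → ℕ) →₀ ℂ) :
    ell1 e b (labRep X h x) = ((Equiv.Perm.sign h : ℤ) : ℂ) * ell1 e b x := by
  rw [ell1_apply, ell1_apply, Finset.mul_sum]
  refine Finset.sum_bij (fun q _ => h⁻¹ * q) ?_ ?_ ?_ ?_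
  · intro q hq
    exact mul_mem_colLow e b (inv_mem_colLow e b hh) hq
  · intro q _ q' _ hqq
    exact mul_left_cancel hqq
  · intro q hq
    refine ⟨h * q, mul_mem_colLow e b hh hq, by group⟩
  · intro q _
    rw [labRep_apply, ← act_mul, Equiv.Perm.sign_mul, Equiv.Perm.sign_inv, ← mul_assoc]
    congr 1
    have : ((Equiv.Perm.sign h : ℤ)) * ((Equiv.Perm.sign h * Equiv.Perm.sign q : ℤˣ) : ℤ) =
        (Equiv.Perm.sign q : ℤ) := by
      rw [Units.val_mul, ← mul_assoc, ← Units.val_mul, Int.units_mul_self]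
      simp
    exact_mod_cast this.symm

end grp

end Vale.Agent.P197
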