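import Mathlib

namespace Vale.Agent.P197

structure StripFilling (m k : ℕ) (nu : YoungDiagram) (T : ℕ × ℕ → ℕ) : Prop where
  lt : ∀ c ∈ nu.cells, T c < m
  count : ∀ l, l < m → (nu.cells.filter (fun c => T c = l)).card = l + 1
  row_mono : ∀ i j j', j < j' → (i, j') ∈ nu → T (i, j) ≤ T (i, j')
  row_rep : ∀ i j j', j < j' → (i, j') ∈ nu → T (i, j) = T (i, j') → k ≤ T (i, j)
  col_rep : ∀ i i' j, i < i' → (i', j) ∈ nu → T (i, j) = T (i', j) → T (i, j) < k

end Vale.Agent.P197
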