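import Vale.Agent.P197.MixMain
import Vale.Agent.P197.StripDefs

namespace Vale.Agent.P197

theorem two_mul_sum_stair' (m : ℕ) : 2 * ∑ i ∈ Finset.range m, (m - i) = m * (m + 1) := by
  induction m with
  | zero => simp
  | succ m ih =>
    rw [Finset.sum_range_succ']
    have : ∑ i ∈ Finset.range m, (m + 1 - (i + 1)) = ∑ i ∈ Finset.range m, (m - i) :=
      Finset.sum_congr rfl (fun i _ => by omega)
    rw [this, mul_add, ih]
    simp only [Nat.sub_zero]
    ring

theorem card_stair (m : ℕ) : (staircase m).card = m * (m + 1) / 2 := by
  have h1 : (staircase m).card = ∑ i ∈ Finset.range m, (m - i) := by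
    unfold YoungDiagram.card
    rw [Finset.card_eq_sum_card_fiberwise (f := Prod.fst) (t := Finset.range m)]
    · refine Finset.sum_congr rfl (fun r hr => ?_)
      have : (staircase m).cells.filter (fun c => c.1 = r) = {r} ×ˢ Finset.range (m - r) := by
        ext ⟨i, j⟩
        rw [Finset.mem_filter, mem_cells_stair]
        simp only [Finset.mem_product, Finset.mem_range, Finset.mem_singleton]
        omega
      rw [this, Finset.card_product, Finset.card_range, Finset.card_singleton, one_mul]
    · intro c hc
      have hc' := mem_cells_stair.mp hc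
      simp only [Finset.coe_range, Set.mem_Iio]
      omega
  have h2 := two_mul_sum_stair' m
  rw [h1]
  generalize m * (m + 1) = t at *
  omega

theorem strip_kron_pos (m k : ℕ) (nu : YoungDiagram) (T : ℕ × ℕ → ℕ)
    (hT : StripFilling m k nu T) :
    0 < kron (m * (m + 1) / 2) (staircase m) (staircase m) nu := by
  let e : Tableau (staircase m) (Fin (m * (m + 1) / 2)) :=
    Finset.equivFinOfCardEq (card_stair m)
  let lab : Fin (m * (m + 1) / 2) → ℕ := fun x => m - 1 - rowOf e x
  have hfib : ∀ l, Fintype.card {c : {c : ℕ × ℕ // c ∈ nu.cells} // T c.1 = l} =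
      Fintype.card {x : Fin (m * (m + 1) / 2) // lab x = l} := by
    intro l
    have e1 : Fintype.card {c : {c : ℕ × ℕ // c ∈ nu.cells} // T c.1 = l} =
        (nu.cells.filter (fun c => T c = l)).card := by
      rw [← Fintype.card_coe]
      apply Fintype.card_congr
      refine (Equiv.subtypeSubtypeEquivSubtypeInter (fun c : ℕ × ℕ => c ∈ nu.cells)
        (fun c => T c = l)).trans (Equiv.subtypeEquivRight ?_)
      intro c
      rw [Finset.mem_filter]
    rw [e1, Fintype.card_subtype]
    by_cases hl : l < m
    · rw [hT.count l hl]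
      have : (Finset.univ.filter (fun x => lab x = l)) =
          Finset.univ.filter (fun x => rowOf e x = m - 1 - l) := by
        ext x
        have := stair_lt e x
        simp only [Finset.mem_filter, Finset.mem_univ, true_and, lab]
        omega
      rw [this, row_card e (by omega)]
      omega
    · rw [Finset.card_eq_zero.mpr, Finset.card_eq_zero.mpr]
      · rw [Finset.filter_eq_empty_iff]
        intro x _
        have := stair_lt e x
        simp only [lab]
        omega
      · rw [Finset.filter_eq_empty_iff]
        intro c hc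
        have := hT.lt c hc
        omega
  let t3 : Tableau nu (Fin (m * (m + 1) / 2)) := Equiv.ofFiberEquiv
    (f := fun c : {c : ℕ × ℕ // c ∈ nu.cells} => T c.1) (g := lab)
    (fun l => Fintype.equivOfCardEq (hfib l))
  have hv : ∀ c, lab (t3 c) = T c.1 := fun c => Equiv.ofFiberEquiv_map _ c
  have hx : ∀ x, m - 1 - rowOf e x = T (rowOf t3 x, colOf t3 x) := by
    intro x
    have := hv (t3.symm x)
    rw [Equiv.apply_symm_apply] at this
    exact this
  apply kron_pos_of_intertwiner
  apply mix_intertwiner e (m - k) t3
  · intro x y hr hc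
    have h1 := hT.row_mono (rowOf t3 y) (colOf t3 x) (colOf t3 y) hc (cell_mem t3 y)
    rw [← hx y, ← hr, ← hx x] at h1
    have := stair_lt e x
    have := stair_lt e y
    omega
  · intro x y hc hr hb
    by_contra hne
    have h2 := stair_lt e x
    have h3 := stair_lt e y
    rcases lt_trichotomy (rowOf t3 x) (rowOf t3 y) with h | h | h
    · have h1 := hT.col_rep (rowOf t3 x) (rowOf t3 y) (colOf t3 y) h (cell_mem t3 y)
      rw [← hx y, ← hc, ← hx x] at h1
      have := h1 (by rw [hr])
      omega
    · exact hne (cell_ext t3 h hc)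
    · have h1 := hT.col_rep (rowOf t3 y) (rowOf t3 x) (colOf t3 x) h (cell_mem t3 x)
      rw [← hx x, hc, ← hx y] at h1
      have := h1 (by rw [hr])
      omega
  · intro x y hr' hr hb
    by_contra hne
    have h2 := stair_lt e x
    have h3 := stair_lt e y
    rcases lt_trichotomy (colOf t3 x) (colOf t3 y) with h | h | h
    · have h1 := hT.row_rep (rowOf t3 y) (colOf t3 x) (colOf t3 y) h (cell_mem t3 y)
      rw [← hx y, ← hr', ← hx x] at h1
      have := h1 (by rw [hr])
      omega
    · exact hne (cell_ext t3 hr' h)
    · have h1 := hT.row_rep (rowOf t3 x) (colOf t3 y) (colOf t3 x) h (cell_mem t3 x)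
      rw [← hx x, hr', ← hx y] at h1
      have := h1 (by rw [hr])
      omega

end Vale.Agent.P197
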