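import Vale.Agent.P197.MixPsi1
import Vale.Agent.P197.LevelLemma

namespace Vale.Agent.P197

variable {X : Type*} [Fintype X] [DecidableEq X]
variable {m : ℕ} (e : Tableau (staircase m) X) (b : ℕ)

theorem row_card {r : ℕ} (hr : r < m) :
    (Finset.univ.filter (fun y : X => rowOf e y = r)).card = m - r := by
  rw [← Finset.card_range (m - r)]
  refine Finset.card_bij (fun y _ => colOf e y) ?_ ?_ ?_
  · intro y hy
    have h1 := (Finset.mem_filter.mp hy).2
    have h2 := stair_lt e y
    rw [Finset.mem_range]
    omega
  · intro y hy y' hy' h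
    exact cell_ext e ((Finset.mem_filter.mp hy).2.trans (Finset.mem_filter.mp hy').2.symm) h
  · intro j hj
    rw [Finset.mem_range] at hj
    have hc : (r, j) ∈ (staircase m).cells := mem_cells_stair.mpr (by simp only; omega)
    refine ⟨e ⟨(r, j), hc⟩, ?_, ?_⟩
    · rw [Finset.mem_filter]
      exact ⟨Finset.mem_univ _, by simp [rowOf]⟩
    · simp [colOf]

theorem rowOf_tabB_upper {x : X} (hx : rowOf e x < b) : rowOf (tabB e b) x = rowOf e x := by
  rw [rowOf_tabB]
  unfold posB
  rw [if_pos hx]

theorem colOf_tabB_upper {x : X} (hx : rowOf e x < b) :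
    colOf (tabB e b) x = m - 1 - rowOf e x - colOf e x := by
  rw [colOf_tabB]
  unfold posB
  rw [if_pos hx]

theorem rowOf_tabB_base {x : X} (hx : b ≤ rowOf e x) :
    rowOf (tabB e b) x = b + (m - 1 - rowOf e x - colOf e x) := by
  rw [rowOf_tabB]
  unfold posB
  rw [if_neg (by simp only; omega)]

theorem colOf_tabB_base {x : X} (hx : b ≤ rowOf e x) :
    colOf (tabB e b) x = rowOf e x - b := by
  rw [colOf_tabB]
  unfold posB
  rw [if_neg (by simp only; omega)]

theorem tabB_rows {g q2 : Equiv.Perm X} (hq2 : q2 ∈ colGroup (tabB e b))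
    (E2 : act q2 (rowOf (tabB e b)) = act g⁻¹ (rowOf (tabB e b))) :
    ∀ x y, rowOf (tabB e b) x = rowOf (tabB e b) y →
      colOf (tabB e b) (g⁻¹ x) = colOf (tabB e b) (g⁻¹ y) → x = y := by
  intro x y hr hc
  have a : ∀ z, rowOf (tabB e b) (q2⁻¹ z) = rowOf (tabB e b) (g z) := by
    intro z
    have := congrFun E2 z
    simpa [act] using this
  have c := colOf_inv (tabB e b) hq2
  have h1 : q2⁻¹ (g⁻¹ x) = q2⁻¹ (g⁻¹ y) := by
    apply cell_ext (tabB e b)
    · rw [a, a, perm_apply_inv, perm_apply_inv, hr]
    · rw [c, c, hc]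
  exact g⁻¹.injective (q2⁻¹.injective h1)

theorem upper_preserved {g p q' q1 q2 : Equiv.Perm X} (hp : p ∈ rowLow e b)
    (hq' : q' ∈ colLow e b) (hq1 : q1 ∈ colGroup (e.trans p))
    (E1 : act q1 (rowOf (e.trans p)) = act g⁻¹ (act q' (rowOf e)))
    (hq2 : q2 ∈ colGroup (tabB e b))
    (E2 : act q2 (rowOf (tabB e b)) = act g⁻¹ (rowOf (tabB e b))) :
    ∀ x, min (rowOf e (g⁻¹ x)) b = min (rowOf e x) b := by
  have hpi := (mem_rowLow e b).mp (inv_mem_rowLow e b hp)
  have hqi := (mem_colLow e b).mp (inv_mem_colLow e b hq')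
  have key := level_preserved g⁻¹ (fun x => m - min (rowOf e x) b)
    (colOf (e.trans p)) (colOf (tabB e b)) (m - b)
    (by intro x; omega)
    (by
      intro x
      have h0 : colOf (e.trans p) x = colOf e (p⁻¹ x) := by
        rw [colOf_trans]
        rfl
      have h1 := stair_lt e x
      have h2 := stair_lt e (p⁻¹ x)
      rw [(hpi x).1] at h2
      rw [h0]
      by_cases hx : rowOf e x < b
      · rw [(hpi x).2 hx, colOf_tabB_upper e b hx]
        omega
      · rw [colOf_tabB_base e b (by omega)]
        omega)
    (by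
      intro x hx
      have h1 := stair_lt e x
      have hxb : rowOf e x < b := by
        omega
      have : (Finset.univ.filter (fun y : X => m - min (rowOf e y) b = m - min (rowOf e x) b)) =
          Finset.univ.filter (fun y : X => rowOf e y = rowOf e x) := by
        ext y
        have h2 := stair_lt e y
        simp only [Finset.mem_filter, Finset.mem_univ, true_and]
        omega
      rw [this, row_card e (by omega)]
      omega)
    (by
      intro x y hx hxy hc
      have h1 := stair_lt e x
      have h2 := stair_lt e y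
      have hxb : rowOf e x < b := by omega
      have hyb : rowOf e y < b := by omega
      have hrow : rowOf e x = rowOf e y := by omega
      have a : ∀ z, rowOf (e.trans p) (q1⁻¹ z) = rowOf e (q'⁻¹ (g z)) := by
        intro z
        have := congrFun E1 z
        simpa [act] using this
      have c := colOf_inv (e.trans p) hq1
      have h3 : q1⁻¹ (g⁻¹ x) = q1⁻¹ (g⁻¹ y) := by
        apply cell_ext (e.trans p)
        · rw [a, a, perm_apply_inv, perm_apply_inv, (hqi x).2 hxb, (hqi y).2 hyb, hrow]
        · rw [c, c, hc]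
      exact g⁻¹.injective (q1⁻¹.injective h3))
    (by
      intro x y hx hxy hc
      have h1 := stair_lt e x
      have h2 := stair_lt e y
      have hxb : rowOf e x < b := by omega
      have hyb : rowOf e y < b := by omega
      have hrow : rowOf e x = rowOf e y := by omega
      apply tabB_rows e b hq2 E2 x y _ hc
      rw [rowOf_tabB_upper e b hxb, rowOf_tabB_upper e b hyb, hrow])
  intro x
  have h1 := key x
  have h2 := stair_lt e x
  have h3 := stair_lt e (g⁻¹ x)
  omega

theorem all_preserved {g : Equiv.Perm X}
    (U : ∀ x, min (rowOf e (g⁻¹ x)) b = min (rowOf e x) b)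
    (TR : ∀ x y, rowOf (tabB e b) x = rowOf (tabB e b) y →
      colOf (tabB e b) (g⁻¹ x) = colOf (tabB e b) (g⁻¹ y) → x = y)
    (NT : ∀ x y, b ≤ rowOf e x → rowOf e x = rowOf e y → colOf e (g x) = colOf e (g y) → x = y) :
    ∀ x, rowOf e (g x) = rowOf e x := by
  have U' : ∀ x, min (rowOf e (g x)) b = min (rowOf e x) b := by
    intro x
    have := U (g x)
    rw [perm_inv_apply] at this
    exact this.symm
  have key := level_preserved g (fun x => m - rowOf e x) (colOf e)
    (fun x => m - 1 - rowOf e x - colOf e x) 0
    (by intro x; omega)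
    (by
      intro x
      have := stair_lt e x
      omega)
    (by
      intro x _
      have h1 := stair_lt e x
      have : (Finset.univ.filter (fun y : X => m - rowOf e y = m - rowOf e x)) =
          Finset.univ.filter (fun y : X => rowOf e y = rowOf e x) := by
        ext y
        have h2 := stair_lt e y
        simp only [Finset.mem_filter, Finset.mem_univ, true_and]
        omega
      rw [this, row_card e (by omega)])
    (by
      intro x y _ hxy hc
      have h1 := stair_lt e x
      have h2 := stair_lt e y
      have hrow : rowOf e x = rowOf e y := by omega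
      by_cases hx : rowOf e x < b
      · have h3 := U' x
        have h4 := U' y
        exact g.injective (cell_ext e (by omega) hc)
      · exact NT x y (by omega) hrow hc)
    (by
      intro x y _ hxy hc
      have h1 := stair_lt e x
      have h2 := stair_lt e y
      have h5 := stair_lt e (g x)
      have h6 := stair_lt e (g y)
      have hrow : rowOf e x = rowOf e y := by omega
      have h3 := U' x
      have h4 := U' y
      by_cases hx : rowOf e x < b
      · exact g.injective (cell_ext e (by omega) (by omega))
      · apply g.injective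
        apply TR
        · rw [rowOf_tabB_base e b (by omega), rowOf_tabB_base e b (by omega), hc]
        · rw [perm_inv_apply, perm_inv_apply, colOf_tabB_base e b (by omega),
            colOf_tabB_base e b (by omega), hrow])
  intro x
  have h1 := key x
  have h2 := stair_lt e x
  have h3 := stair_lt e (g x)
  omega

theorem mix_loc (g : Equiv.Perm X) (h1 : ell1 e b (labRep X g (zvec e b)) ≠ 0)
    (h2 : polytabloid (tabB e b) (act g⁻¹ (rowOf (tabB e b))) ≠ 0) :
    ∀ x, rowOf e (g x) = rowOf e x := by
  obtain ⟨p, hp, q', hq', q1, hq1, E1⟩ := psi1_support e b g h1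
  obtain ⟨q2, hq2, E2⟩ : ∃ q2 ∈ colGroup (tabB e b),
      act q2 (rowOf (tabB e b)) = act g⁻¹ (rowOf (tabB e b)) := by
    by_contra hcon
    push Not at hcon
    apply h2
    rw [polytabloid_apply]
    exact Finset.sum_eq_zero (fun q hq => by rw [if_neg (hcon q hq)])
  have U := upper_preserved e b hp hq' hq1 E1 hq2 E2
  have TR := tabB_rows e b hq2 E2
  apply all_preserved e b U TR
  intro x y hx hrow hc
  by_contra hne
  apply h1
  have U1 := U (g x)
  have U2 := U (g y)
  rw [perm_inv_apply] at U1 U2
  apply psi1_zero e b g (a := g x) (a' := g y) (fun h => hne (g.injective h))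
    (by omega) (by omega) hc
  · rw [perm_inv_apply]
    exact hx
  · rw [perm_inv_apply, perm_inv_apply]
    exact hrow

theorem colGroup_inj {μ : YoungDiagram} (t : Tableau μ X) {q q' : Equiv.Perm X}
    (hq : q ∈ colGroup t) (hq' : q' ∈ colGroup t) (h : act q (rowOf t) = act q' (rowOf t)) :
    q = q' := by
  have : q⁻¹ = q'⁻¹ := by
    ext x
    apply cell_ext t (congrFun h x)
    rw [colOf_inv t hq, colOf_inv t hq']
  exact inv_inj.mp this

theorem psi2_eq (g q : Equiv.Perm X) (hq : q ∈ rowLow e b)
    (h1 : ∀ x, b ≤ rowOf e x → g x = q x) (h2 : ∀ x, rowOf e (g x) = rowOf e x) :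
    polytabloid (tabB e b) (act g⁻¹ (rowOf (tabB e b))) = ((Equiv.Perm.sign q : ℤ) : ℂ) := by
  have hqi := (mem_rowLow e b).mp (inv_mem_rowLow e b hq)
  have hq0 := (mem_rowLow e b).mp hq
  have hmem : q⁻¹ ∈ colGroup (tabB e b) := by
    rw [mem_colGroup]
    intro x
    by_cases hx : rowOf e x < b
    · rw [(hqi x).2 hx]
    · rw [colOf_tabB_base e b (x := q⁻¹ x) (by rw [(hqi x).1]; omega),
        colOf_tabB_base e b (x := x) (by omega), (hqi x).1]
  have heq : act q⁻¹ (rowOf (tabB e b)) = act g⁻¹ (rowOf (tabB e b)) := by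
    funext x
    simp only [act, inv_inv]
    by_cases hx : rowOf e x < b
    · rw [(hq0 x).2 hx, rowOf_tabB_upper e b hx, rowOf_tabB_upper e b (by rw [h2]; exact hx), h2]
    · rw [h1 x (by omega)]
  rw [polytabloid_apply, Finset.sum_eq_single_of_mem q⁻¹ hmem]
  · rw [if_pos heq, Equiv.Perm.sign_inv]
  · intro q2 hq2 hne
    rw [if_neg]
    intro h
    exact hne (colGroup_inj (tabB e b) hq2 hmem (h.trans heq.symm))

end Vale.Agent.P197
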