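import Vale.Agent.P197.Potential

namespace Vale.Agent.P197

variable {X : Type*} [Fintype X] [DecidableEq X]

theorem super_lemma {mu : YoungDiagram} (t3 : Tableau mu X) (v : X → ℕ)
    (hrow : ∀ x y, rowOf t3 x = rowOf t3 y → colOf t3 x < colOf t3 y → v x ≤ v y)
    (g q : Equiv.Perm X) (hq : q ∈ colGroup t3)
    (e1 : act g (rowOf t3) = act q (rowOf t3)) (e2 : act g v = v) :
    (∀ x, v (q x) = v x) ∧ (∀ x, rowOf t3 (g⁻¹ (q x)) = rowOf t3 x) ∧
      (∀ x, v (g⁻¹ (q x)) = v x) := by
  have a1 : ∀ z, rowOf t3 (g⁻¹ z) = rowOf t3 (q⁻¹ z) := fun z => congrFun e1 z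
  have a2 : ∀ z, v (g⁻¹ z) = v z := fun z => congrFun e2 z
  have cq : ∀ x, colOf t3 (q x) = colOf t3 x := (mem_colGroup t3 q).mp hq
  set σ : Equiv.Perm X := g⁻¹ * q with hσ
  have σr : ∀ x, rowOf t3 (σ x) = rowOf t3 x := by
    intro x
    have := a1 (q x)
    simpa [hσ] using this
  have σv : ∀ x, v (σ x) = v (q x) := by
    intro x
    have := a2 (q x)
    simpa [hσ] using this
  obtain ⟨L, hL⟩ : ∃ L : ℕ, ∀ x, colOf t3 x < L ∧ v x < L := by
    refine ⟨∑ x, (colOf t3 x + v x) + 1, fun x => ?_⟩
    have := Finset.single_le_sum (f := fun x => colOf t3 x + v x) (fun _ _ => Nat.zero_le _)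
      (Finset.mem_univ x)
    omega
  set r : X → ℤ := fun x => (rowOf t3 x : ℤ) with hr
  set c : X → ℤ := fun x => (colOf t3 x : ℤ) with hc
  set w : X → ℤ := fun x => (v x : ℤ) with hw
  set f : X → ℤ := fun x => w x + L * r x with hf
  set gg : X → ℤ := fun x => c x + L * r x with hgg
  have hc0 : ∀ x, 0 ≤ c x := fun x => Int.natCast_nonneg _
  have hw0 : ∀ x, 0 ≤ w x := fun x => Int.natCast_nonneg _
  have hcL : ∀ x, c x < L := fun x => by simp only [hc]; exact_mod_cast (hL x).1
  have hwL : ∀ x, w x < L := fun x => by simp only [hw]; exact_mod_cast (hL x).2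
  have hstep : ∀ i j : X, rowOf t3 j < rowOf t3 i → (L : ℤ) * r j + L ≤ L * r i := by
    intro i j h
    have h' : r j + 1 ≤ r i := by
      simp only [hr]
      exact_mod_cast h
    have := mul_le_mul_of_nonneg_left h' (Int.natCast_nonneg L)
    linarith
  have mono1 : Monovary f gg := by
    intro i j h
    simp only [hf, hgg] at h ⊢
    rcases lt_trichotomy (rowOf t3 i) (rowOf t3 j) with h1 | h1 | h1
    · have := hstep j i h1
      have := hwL i
      have := hw0 j
      linarith
    · have hrr : r i = r j := by simp only [hr]; exact_mod_cast h1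
      rw [hrr] at h ⊢
      have hlt : colOf t3 i < colOf t3 j := by
        have : c i < c j := by linarith
        simp only [hc] at this
        exact_mod_cast this
      have : w i ≤ w j := by
        simp only [hw]
        exact_mod_cast hrow i j h1 hlt
      linarith
    · have := hstep i j h1
      have := hcL j
      have := hc0 i
      linarith
  have gginj : ∀ i j, gg i = gg j → i = j := by
    intro i j h
    simp only [hgg] at h
    rcases lt_trichotomy (rowOf t3 i) (rowOf t3 j) with h1 | h1 | h1
    · have := hstep j i h1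
      have := hcL i
      have := hc0 j
      linarith
    · have hrr : r i = r j := by simp only [hr]; exact_mod_cast h1
      rw [hrr] at h
      have : c i = c j := by linarith
      simp only [hc] at this
      exact cell_ext t3 h1 (by exact_mod_cast this)
    · have := hstep i j h1
      have := hcL j
      have := hc0 i
      linarith
  have rσ : ∀ x, r (σ x) = r x := fun x => by simp only [hr, σr]
  have s1 : ∑ x, w (σ x) * c x = ∑ x, w x * c x := by
    rw [← Equiv.sum_comp q (fun x => w x * c x)]
    exact Finset.sum_congr rfl (fun x _ => by simp only [hw, hc, σv, cq])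
  have s2 : ∑ x, w (σ x) * r x = ∑ x, w x * r x := by
    rw [← Equiv.sum_comp σ (fun x => w x * r x)]
    exact Finset.sum_congr rfl (fun x _ => by rw [rσ])
  have e3 : ∑ x, f (σ x) * gg x = ∑ x, f x * gg x := by
    have l1 : ∀ x, f (σ x) * gg x =
        w (σ x) * c x + L * (w (σ x) * r x) + (L * r x) * (c x + L * r x) := by
      intro x
      simp only [hf, hgg, rσ]
      ring
    have l2 : ∀ x, f x * gg x =
        w x * c x + L * (w x * r x) + (L * r x) * (c x + L * r x) := by
      intro x
      simp only [hf, hgg]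
      ring
    simp only [l1, l2, Finset.sum_add_distrib, ← Finset.mul_sum, s1, s2]
  have mono2 : Monovary (f ∘ ⇑σ) gg := (mono1.sum_comp_perm_mul_eq_sum_mul_iff).mp e3
  have mono3 : Monovary f (f ∘ ⇑σ) := by
    intro i j h
    have h' : f (σ i) < f (σ j) := h
    have hlt : gg i < gg j := by
      by_contra hcon
      rcases (not_lt.mp hcon).eq_or_lt with h1 | h1
      · have := gginj j i h1
        rw [this] at h'
        exact lt_irrefl _ h'
      · have h2 : f (σ j) ≤ f (σ i) := mono2 h1
        linarith
    exact mono1 hlt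
  have e4 : ∑ x, f x * f (σ x) = ∑ x, f x * f x :=
    ((monovary_self f).sum_mul_comp_perm_eq_sum_mul_iff).mpr mono3
  have e5 : ∑ x, f (σ x) * f (σ x) = ∑ x, f x * f x :=
    Equiv.sum_comp σ (fun x => f x * f x)
  have e6 : ∑ x, (f x - f (σ x)) ^ 2 = 0 := by
    have l3 : ∀ x, (f x - f (σ x)) ^ 2 =
        f x * f x - 2 * (f x * f (σ x)) + f (σ x) * f (σ x) := by
      intro x
      ring
    simp only [l3, Finset.sum_add_distrib, Finset.sum_sub_distrib, ← Finset.mul_sum, e4, e5]
    ring
  have e7 := (Finset.sum_eq_zero_iff_of_nonneg (fun x _ => sq_nonneg _)).mp e6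
  have vσ : ∀ x, v (σ x) = v x := by
    intro x
    have h1 := e7 x (Finset.mem_univ _)
    have h2 : f x = f (σ x) := by
      have := pow_eq_zero_iff (two_ne_zero) |>.mp h1
      linarith
    simp only [hf, rσ] at h2
    have h3 : w (σ x) = w x := by linarith
    simp only [hw] at h3
    exact_mod_cast h3
  refine ⟨fun x => by rw [← σv, vσ], fun x => ?_, fun x => ?_⟩
  · have := σr x
    simpa [hσ] using this
  · have := vσ x
    simpa [hσ] using this

end Vale.Agent.P197
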