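import Vale.Agent.P197.MixLoc
import Vale.Agent.P197.Super

namespace Vale.Agent.P197

variable {X : Type*} [Fintype X] [DecidableEq X]

theorem mix_decomp {m : ℕ} (e : Tableau (staircase m) X) (b : ℕ) {mu : YoungDiagram}
    (t3 : Tableau mu X)
    (hrw : ∀ x y, rowOf t3 x = rowOf t3 y → colOf t3 x < colOf t3 y → rowOf e y ≤ rowOf e x)
    (hcc : ∀ x y, colOf t3 x = colOf t3 y → rowOf e x = rowOf e y → rowOf e x < b → x = y)
    (hrr : ∀ x y, rowOf t3 x = rowOf t3 y → rowOf e x = rowOf e y → b ≤ rowOf e x → x = y)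
    (g q : Equiv.Perm X) (hg : ∀ x, rowOf e (g x) = rowOf e x) (hq : q ∈ colGroup t3)
    (E : act q (rowOf t3) = act g (rowOf t3)) :
    q ∈ rowLow e b ∧ ∀ x, b ≤ rowOf e x → g x = q x := by
  have hgi : ∀ x, rowOf e (g⁻¹ x) = rowOf e x := by
    intro x
    have := hg (g⁻¹ x)
    rw [perm_apply_inv] at this
    exact this.symm
  obtain ⟨A, B, C⟩ := super_lemma t3 (fun x => m - rowOf e x)
    (by
      intro x y h1 h2
      have := hrw x y h1 h2
      omega)
    g q hq E.symm
    (by
      funext x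
      simp only [act, hgi])
  have A' : ∀ x, rowOf e (q x) = rowOf e x := by
    intro x
    have h1 := A x
    have h2 := stair_lt e x
    have h3 := stair_lt e (q x)
    omega
  constructor
  · rw [mem_rowLow]
    intro x
    refine ⟨A' x, fun hx => ?_⟩
    exact hcc (q x) x ((mem_colGroup t3 q).mp hq x) (A' x) (by rw [A']; exact hx)
  · intro x hx
    have h1 : g⁻¹ (q x) = x := by
      apply hrr _ _ (B x)
      · rw [hgi, A']
      · rw [hgi, A']
        exact hx
    rw [Equiv.Perm.inv_eq_iff_eq] at h1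
    exact h1.symm

theorem mix_intertwiner {m : ℕ} (e : Tableau (staircase m) X) (b : ℕ) {mu : YoungDiagram}
    (t3 : Tableau mu X)
    (hrw : ∀ x y, rowOf t3 x = rowOf t3 y → colOf t3 x < colOf t3 y → rowOf e y ≤ rowOf e x)
    (hcc : ∀ x y, colOf t3 x = colOf t3 y → rowOf e x = rowOf e y → rowOf e x < b → x = y)
    (hrr : ∀ x y, rowOf t3 x = rowOf t3 y → rowOf e x = rowOf e y → b ≤ rowOf e x → x = y) :
    ∃ f : Representation.IntertwiningMap (spechtRep mu X)
      ((spechtRep (staircase m) X).tprod (spechtRep (staircase m) X)), f ≠ 0 := by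
  classical
  refine exists_intertwiner_seed t3 ⟨zvec e b, zvec_mem e b⟩
    ⟨polytabloid (tabB e b), polytabloid_mem (tabB e b)⟩ (ell1 e b)
    (Finsupp.lapply (rowOf (tabB e b))) (ell1 e b (zvec e b)) (psi1_one_ne e b)
    (fun g => if (∀ x, rowOf e (g x) = rowOf e x) then
      ((colGroup t3).filter (fun q => act q (rowOf t3) = act g (rowOf t3))).card else 0) ?_ ?_
  · have h0 : ∀ x : X, rowOf e ((1 : Equiv.Perm X) x) = rowOf e x := fun x => rfl
    rw [if_pos h0]
    apply Finset.card_pos.mpr
    exact ⟨1, Finset.mem_filter.mpr ⟨one_mem_colGroup t3, rfl⟩⟩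
  · intro g
    simp only [Finsupp.lapply_apply]
    rw [labRep_apply]
    by_cases hg : ∀ x, rowOf e (g x) = rowOf e x
    · rw [if_pos hg, polytabloid_apply, Finset.sum_mul, Finset.card_filter]
      push_cast
      rw [Finset.mul_sum]
      refine Finset.sum_congr rfl (fun q hq => ?_)
      by_cases E : act q (rowOf t3) = act g (rowOf t3)
      · obtain ⟨h1, h2⟩ := mix_decomp e b t3 hrw hcc hrr g q hg hq E
        rw [if_pos E, if_pos E, psi1_eq e b g q h1 h2 hg, psi2_eq e b g q h1 h2 hg]
        have : ((Equiv.Perm.sign q : ℤ)) * ((Equiv.Perm.sign q : ℤ)) = 1 := by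
          rw [← Units.val_mul, Int.units_mul_self]
          rfl
        have h3 : (((Equiv.Perm.sign q : ℤ)) : ℂ) * (((Equiv.Perm.sign q : ℤ)) : ℂ) = 1 := by
          exact_mod_cast this
        linear_combination (ell1 e b (zvec e b)) * h3
      · rw [if_neg E, if_neg E]
        simp
    · rw [if_neg hg]
      have : ell1 e b (labRep X g (zvec e b)) *
          polytabloid (tabB e b) (act g⁻¹ (rowOf (tabB e b))) = 0 := by
        by_contra hcon
        exact hg (mix_loc e b g (left_ne_zero_of_mul hcon) (right_ne_zero_of_mul hcon))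
      rw [this]
      simp

end Vale.Agent.P197
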