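import Vale.Agent.P197.MixDefs

namespace Vale.Agent.P197

variable {X : Type*} [Fintype X] [DecidableEq X]
variable {μ : YoungDiagram} (e : Tableau μ X) (b : ℕ)

theorem swap_mem_colLow {a a' : X} (hb : b ≤ rowOf e a) (hb' : b ≤ rowOf e a')
    (hcol : colOf e a = colOf e a') : Equiv.swap a a' ∈ colLow e b := by
  rw [mem_colLow]
  intro x
  by_cases h1 : x = a
  · subst h1
    rw [Equiv.swap_apply_left]
    exact ⟨hcol.symm, fun h => by omega⟩
  · by_cases h2 : x = a'
    · subst h2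
      rw [Equiv.swap_apply_right]
      exact ⟨hcol, fun h => by omega⟩
    · rw [Equiv.swap_apply_of_ne_of_ne h1 h2]
      exact ⟨rfl, fun _ => rfl⟩

theorem swap_mem_rowLow {a a' : X} (hb : b ≤ rowOf e a) (hrow : rowOf e a = rowOf e a') :
    Equiv.swap a a' ∈ rowLow e b := by
  rw [mem_rowLow]
  intro x
  by_cases h1 : x = a
  · subst h1
    rw [Equiv.swap_apply_left]
    exact ⟨hrow.symm, fun h => by omega⟩
  · by_cases h2 : x = a'
    · subst h2
      rw [Equiv.swap_apply_right]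
      exact ⟨hrow, fun h => by omega⟩
    · rw [Equiv.swap_apply_of_ne_of_ne h1 h2]
      exact ⟨rfl, fun _ => rfl⟩

theorem psi1_zero (g : Equiv.Perm X) {a a' : X} (hne : a ≠ a') (hb : b ≤ rowOf e a)
    (hb' : b ≤ rowOf e a') (hcol : colOf e a = colOf e a')
    (hg : b ≤ rowOf e (g⁻¹ a)) (hrow : rowOf e (g⁻¹ a) = rowOf e (g⁻¹ a')) :
    ell1 e b (labRep X g (zvec e b)) = 0 := by
  have h1 := swap_mem_colLow e b hb hb' hcol
  have h2 := swap_mem_rowLow e b hg hrow
  have h3 : g * Equiv.swap (g⁻¹ a) (g⁻¹ a') = Equiv.swap a a' * g := by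
    rw [Equiv.mul_swap_eq_swap_mul, perm_apply_inv, perm_apply_inv]
  have h4 : labRep X (Equiv.swap a a') (labRep X g (zvec e b)) = labRep X g (zvec e b) := by
    rw [← Module.End.mul_apply, ← map_mul, ← h3, map_mul, Module.End.mul_apply,
      labRep_zvec e b h2]
  have h5 := ell1_labRep e b h1 (labRep X g (zvec e b))
  rw [h4, Equiv.Perm.sign_swap hne] at h5
  have h6 : (((-1 : ℤˣ) : ℤ) : ℂ) = -1 := by simp
  rw [h6] at h5
  have h7 : (2 : ℂ) * ell1 e b (labRep X g (zvec e b)) = 0 := by linear_combination h5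
  rcases mul_eq_zero.mp h7 with h | h
  · norm_num at h
  · exact h

theorem psi1_support (g : Equiv.Perm X) (h : ell1 e b (labRep X g (zvec e b)) ≠ 0) :
    ∃ p ∈ rowLow e b, ∃ q' ∈ colLow e b, ∃ q1 ∈ colGroup (e.trans p),
      act q1 (rowOf (e.trans p)) = act g⁻¹ (act q' (rowOf e)) := by
  by_contra hcon
  push Not at hcon
  apply h
  rw [ell1_apply]
  refine Finset.sum_eq_zero (fun q' hq' => ?_)
  rw [labRep_apply]
  unfold zvec
  rw [Finsupp.finsetSum_apply, Finset.sum_eq_zero, mul_zero]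
  intro p hp
  rw [polytabloid_apply]
  refine Finset.sum_eq_zero (fun q1 hq1 => ?_)
  rw [if_neg (hcon p hp q' hq' q1 hq1)]

theorem psi1_eq (g q : Equiv.Perm X) (hq : q ∈ rowLow e b)
    (h1 : ∀ x, b ≤ rowOf e x → g x = q x) (h2 : ∀ x, rowOf e (g x) = rowOf e x) :
    ell1 e b (labRep X g (zvec e b)) = ell1 e b (zvec e b) := by
  rw [ell1_apply, ell1_apply]
  refine Finset.sum_congr rfl (fun q' hq' => ?_)
  congr 1
  rw [labRep_apply]
  have h3 : act g⁻¹ (act q' (rowOf e)) = act q⁻¹ (act q' (rowOf e)) := by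
    funext x
    simp only [act, inv_inv]
    by_cases hx : b ≤ rowOf e x
    · rw [h1 x hx]
    · have hx' : rowOf e x < b := by omega
      have hq'' := (mem_colLow e b).mp (inv_mem_colLow e b hq')
      rw [((mem_rowLow e b).mp hq x).2 hx', (hq'' x).2 hx', (hq'' (g x)).2 (by rw [h2]; exact hx'),
        h2]
  rw [h3, ← labRep_apply, labRep_zvec e b hq]

def Wz (w : X → ℕ) : ℤ :=
  ∑ pq ∈ rowLow e b ×ˢ colLow e b,
    if act (pq.1 * pq.2) (rowOf e) = w then (Equiv.Perm.sign pq.2 : ℤ) else 0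

omit [Fintype X] [DecidableEq X] in
theorem act_eq_iff (p : Equiv.Perm X) (u w : X → ℕ) : u = act p⁻¹ w ↔ act p u = w := by
  constructor
  · intro h
    rw [h, act_act_inv]
  · intro h
    rw [← h, act_inv_act]

theorem colGroup_eq_one {q : Equiv.Perm X} (hq : q ∈ colGroup e)
    (h : act q (rowOf e) = rowOf e) : q = 1 := by
  have : q⁻¹ = 1 := by
    ext x
    exact cell_ext e (congrFun h x) (colOf_inv e hq x)
  exact inv_eq_one.mp this

theorem poly_trans_apply {p q' : Equiv.Perm X} (hp : p ∈ rowLow e b) (hq' : q' ∈ colLow e b) :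
    polytabloid (e.trans p) (act q' (rowOf e)) =
      ((∑ q ∈ colLow e b,
        if act (p * q) (rowOf e) = act q' (rowOf e) then (Equiv.Perm.sign q : ℤ) else 0 : ℤ) : ℂ) := by
  rw [← labRep_polytabloid, labRep_apply, polytabloid_apply]
  push_cast
  symm
  apply Finset.sum_subset_zero_on_sdiff (fun q hq => colLow_sub_colGroup e b hq)
  · intro q hq
    rw [Finset.mem_sdiff] at hq
    rw [if_neg]
    intro h
    apply hq.2
    rw [act_eq_iff, ← act_mul] at h
    rw [mem_colLow]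
    intro x
    refine ⟨(mem_colGroup e q).mp hq.1 x, fun hx => ?_⟩
    have h1 := congrFun h x
    simp only [act, mul_inv_rev, Equiv.Perm.mul_apply] at h1
    rw [((mem_rowLow e b).mp (inv_mem_rowLow e b hp) x).2 hx,
      ((mem_colLow e b).mp (inv_mem_colLow e b hq') x).2 hx] at h1
    have h2 : q⁻¹ x = x := cell_ext e h1 (colOf_inv e hq.1 x)
    rw [Equiv.Perm.inv_eq_iff_eq] at h2
    exact h2.symm
  · intro q _
    by_cases h : act (p * q) (rowOf e) = act q' (rowOf e)
    · rw [if_pos h, if_pos]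
      rw [act_eq_iff, ← act_mul]
      exact h
    · rw [if_neg h, if_neg]
      rw [act_eq_iff, ← act_mul]
      exact h

theorem psi1_one_eq :
    ell1 e b (zvec e b) =
      ((∑ q' ∈ colLow e b, (Equiv.Perm.sign q' : ℤ) * Wz e b (act q' (rowOf e)) : ℤ) : ℂ) := by
  rw [ell1_apply]
  push_cast
  refine Finset.sum_congr rfl (fun q' hq' => ?_)
  congr 1
  unfold zvec Wz
  rw [Finsupp.finsetSum_apply, Finset.sum_product]
  push_cast
  refine Finset.sum_congr rfl (fun p hp => ?_)
  rw [poly_trans_apply e b hp hq']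
  push_cast
  rfl

theorem Wz_act {p : Equiv.Perm X} (hp : p ∈ rowLow e b) (w : X → ℕ) :
    Wz e b (act p w) = Wz e b w := by
  unfold Wz
  refine Finset.sum_bij (fun pq _ => (p⁻¹ * pq.1, pq.2)) ?_ ?_ ?_ ?_
  · intro pq hpq
    rw [Finset.mem_product] at hpq ⊢
    exact ⟨mul_mem_rowLow e b (inv_mem_rowLow e b hp) hpq.1, hpq.2⟩
  · intro pq _ pq' _ h
    simp only [Prod.mk.injEq] at h
    exact Prod.ext (mul_left_cancel h.1) h.2
  · intro pq hpq
    rw [Finset.mem_product] at hpq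
    refine ⟨(p * pq.1, pq.2), ?_, ?_⟩
    · rw [Finset.mem_product]
      exact ⟨mul_mem_rowLow e b hp hpq.1, hpq.2⟩
    · simp
  · intro pq _
    have : act (pq.1 * pq.2) (rowOf e) = act p w ↔ act (p⁻¹ * pq.1 * pq.2) (rowOf e) = w := by
      constructor
      · intro h
        rw [mul_assoc, act_mul, h, act_inv_act]
      · intro h
        rw [← h, mul_assoc, act_mul p⁻¹, act_act_inv]
    simp only [this]

theorem Wz_self : Wz e b (rowOf e) = (rowLow e b).card := by
  unfold Wz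
  rw [Finset.sum_product, Finset.card_eq_sum_ones]
  push_cast
  refine Finset.sum_congr rfl (fun p hp => ?_)
  rw [Finset.sum_eq_single_of_mem 1 (one_mem_colLow e b)]
  · simp [act_rowLow e b hp]
  · intro q hq hq1
    rw [if_neg]
    intro h
    apply hq1
    apply colGroup_eq_one e (colLow_sub_colGroup e b hq)
    rw [act_mul, ← act_eq_iff, act_rowLow e b (inv_mem_rowLow e b hp)] at h
    exact h

theorem sum_Wz_sq :
    ∑ pq ∈ rowLow e b ×ˢ colLow e b,
      (Equiv.Perm.sign pq.2 : ℤ) * Wz e b (act (pq.1 * pq.2) (rowOf e)) =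
    ∑ w ∈ (rowLow e b ×ˢ colLow e b).image (fun pq => act (pq.1 * pq.2) (rowOf e)),
      Wz e b w * Wz e b w := by
  rw [← Finset.sum_fiberwise_of_maps_to (s := rowLow e b ×ˢ colLow e b)
    (t := (rowLow e b ×ˢ colLow e b).image (fun pq => act (pq.1 * pq.2) (rowOf e)))
    (g := fun pq => act (pq.1 * pq.2) (rowOf e))
    (fun pq hpq => Finset.mem_image_of_mem _ hpq)]
  refine Finset.sum_congr rfl (fun w _ => ?_)
  conv_rhs => lhs; unfold Wz
  rw [← Finset.sum_filter, Finset.sum_mul]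
  refine Finset.sum_congr rfl (fun pq hpq => ?_)
  rw [(Finset.mem_filter.mp hpq).2]

theorem psi1_one_ne : ell1 e b (zvec e b) ≠ 0 := by
  rw [psi1_one_eq]
  intro h
  have h0 : ∑ q' ∈ colLow e b, (Equiv.Perm.sign q' : ℤ) * Wz e b (act q' (rowOf e)) = 0 := by
    exact_mod_cast h
  have h1 : ∑ pq ∈ rowLow e b ×ˢ colLow e b,
      (Equiv.Perm.sign pq.2 : ℤ) * Wz e b (act (pq.1 * pq.2) (rowOf e)) = 0 := by
    rw [Finset.sum_product]
    refine Finset.sum_eq_zero (fun p hp => ?_)
    rw [← h0]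
    refine Finset.sum_congr rfl (fun q _ => ?_)
    rw [act_mul, Wz_act e b hp]
  rw [sum_Wz_sq] at h1
  have h2 := (Finset.sum_eq_zero_iff_of_nonneg (fun w _ => mul_self_nonneg (Wz e b w))).mp h1
    (rowOf e) (by
      rw [Finset.mem_image]
      refine ⟨(1, 1), ?_, by simp [act_one]⟩
      rw [Finset.mem_product]
      exact ⟨one_mem_rowLow e b, one_mem_colLow e b⟩)
  rw [Wz_self] at h2
  have h3 : 0 < (rowLow e b).card := Finset.card_pos.mpr ⟨1, one_mem_rowLow e b⟩
  have h4 : ((rowLow e b).card : ℤ) = 0 := mul_self_eq_zero.mp h2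
  omega

end Vale.Agent.P197
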