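import Vale.Agent.P197.Criterion

namespace Vale.Agent.P197

open scoped TensorProduct

variable {X : Type*} [Fintype X] [DecidableEq X]

section seed

variable {l1 l2 mu : YoungDiagram}

noncomputable def bigMapS
    (s : (spechtSub l1 X).toSubmodule ⊗[ℂ] (spechtSub l2 X).toSubmodule) (u3 : X → ℕ) :
    ((X → ℕ) →₀ ℂ) →ₗ[ℂ] ((spechtSub l1 X).toSubmodule ⊗[ℂ] (spechtSub l2 X).toSubmodule) :=
  ∑ g : Equiv.Perm X, (Finsupp.lapply (act g u3)).smulRight (tens (l1 := l1) (l2 := l2) g s)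

theorem bigMapS_apply
    (s : (spechtSub l1 X).toSubmodule ⊗[ℂ] (spechtSub l2 X).toSubmodule) (u3 : X → ℕ)
    (x : (X → ℕ) →₀ ℂ) :
    bigMapS s u3 x = ∑ g : Equiv.Perm X, x (act g u3) • tens (l1 := l1) (l2 := l2) g s := by
  simp [bigMapS, LinearMap.sum_apply]

theorem bigMapS_equivariant
    (s : (spechtSub l1 X).toSubmodule ⊗[ℂ] (spechtSub l2 X).toSubmodule) (u3 : X → ℕ)
    (h : Equiv.Perm X) (x : (X → ℕ) →₀ ℂ) :
    bigMapS s u3 (labRep X h x) = tens (l1 := l1) (l2 := l2) h (bigMapS s u3 x) := by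
  rw [bigMapS_apply, bigMapS_apply, map_sum]
  refine Fintype.sum_equiv (Equiv.mulLeft h⁻¹) _ _ ?_
  intro g
  rw [labRep_apply, ← act_mul, map_smul, Equiv.coe_mulLeft, ← Module.End.mul_apply, ← map_mul,
    mul_inv_cancel_left]

noncomputable def evalL (f1 f2 : ((X → ℕ) →₀ ℂ) →ₗ[ℂ] ℂ) :
    ((spechtSub l1 X).toSubmodule ⊗[ℂ] (spechtSub l2 X).toSubmodule) →ₗ[ℂ] ℂ :=
  LinearMap.mul' ℂ ℂ ∘ₗ TensorProduct.map
    (f1 ∘ₗ (spechtSub l1 X).toSubmodule.subtype)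
    (f2 ∘ₗ (spechtSub l2 X).toSubmodule.subtype)

theorem evalL_tens (f1 f2 : ((X → ℕ) →₀ ℂ) →ₗ[ℂ] ℂ) (g : Equiv.Perm X)
    (z : (spechtSub l1 X).toSubmodule) (y : (spechtSub l2 X).toSubmodule) :
    evalL (l1 := l1) (l2 := l2) f1 f2 (tens (l1 := l1) (l2 := l2) g (z ⊗ₜ[ℂ] y)) =
      f1 (labRep X g z.1) * f2 (labRep X g y.1) := by
  simp only [evalL, tens, Representation.tprod_apply, TensorProduct.map_tmul,
    LinearMap.comp_apply, LinearMap.mul'_apply, Submodule.subtype_apply]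
  rfl

theorem exists_intertwiner_seed (t3 : Tableau mu X)
    (z : (spechtSub l1 X).toSubmodule) (y : (spechtSub l2 X).toSubmodule)
    (f1 f2 : ((X → ℕ) →₀ ℂ) →ₗ[ℂ] ℂ) (c : ℂ) (hc : c ≠ 0) (n : Equiv.Perm X → ℕ)
    (hn : 0 < n 1)
    (H : ∀ g : Equiv.Perm X, polytabloid t3 (act g (rowOf t3)) *
      (f1 (labRep X g z.1) * f2 (labRep X g y.1)) = c * (n g : ℂ)) :
    ∃ f : Representation.IntertwiningMap (spechtRep mu X)
      ((spechtRep l1 X).tprod (spechtRep l2 X)), f ≠ 0 := by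
  refine ⟨⟨bigMapS (z ⊗ₜ[ℂ] y) (rowOf t3) ∘ₗ (spechtSub mu X).toSubmodule.subtype, ?_⟩, ?_⟩
  · intro g
    ext w
    exact bigMapS_equivariant (z ⊗ₜ[ℂ] y) (rowOf t3) g w.1
  · intro hf
    have h0 : bigMapS (z ⊗ₜ[ℂ] y) (rowOf t3) (polytabloid t3) = 0 := by
      have := congrArg (fun f : Representation.IntertwiningMap (spechtRep mu X)
        ((spechtRep l1 X).tprod (spechtRep l2 X)) => f ⟨polytabloid t3, polytabloid_mem t3⟩) hf
      exact this
    have h1 := congrArg (evalL (l1 := l1) (l2 := l2) f1 f2) h0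
    rw [bigMapS_apply, map_sum, map_zero] at h1
    have h2 : ∀ g : Equiv.Perm X,
        evalL (l1 := l1) (l2 := l2) f1 f2
          (polytabloid t3 (act g (rowOf t3)) • tens (l1 := l1) (l2 := l2) g (z ⊗ₜ[ℂ] y)) =
        c * (n g : ℂ) := by
      intro g
      rw [map_smul, evalL_tens, smul_eq_mul, H]
    rw [Finset.sum_congr rfl (fun g _ => h2 g), ← Finset.mul_sum, ← Nat.cast_sum] at h1
    rcases mul_eq_zero.mp h1 with h3 | h3
    · exact hc h3
    · rw [Nat.cast_eq_zero, Finset.sum_eq_zero_iff] at h3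
      have := h3 1 (Finset.mem_univ _)
      omega

end seed

end Vale.Agent.P197
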