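import Vale.Agent.P197.StairMain
import Vale.Agent.P197.Filling

namespace Vale.Agent.P197

def alphaMin (m k : ℕ) : ℕ := if k = 0 then m - 1 else if k + 1 = m then 2 else m - k

theorem alphaMin_antitone {m : ℕ} (hm : 3 ≤ m) : Antitone (alphaMin m) := by
  apply antitone_nat_of_succ_le
  intro k
  unfold alphaMin
  split_ifs <;> first | omega | (exfalso; assumption)

theorem sum_alphaMin {m : ℕ} (hm : 3 ≤ m) (k : ℕ) :
    ∑ i ∈ Finset.range k, alphaMin m i + (if 1 ≤ k ∧ k < m then 1 else 0) =
      ∑ i ∈ Finset.range k, (m - i) := by
  induction k with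
  | zero => simp
  | succ k ih =>
    rw [Finset.sum_range_succ, Finset.sum_range_succ, ← ih]
    unfold alphaMin
    split_ifs <;> omega

theorem two_mul_sum_stair (m : ℕ) : 2 * ∑ i ∈ Finset.range m, (m - i) = m * (m + 1) := by
  induction m with
  | zero => simp
  | succ m ih =>
    rw [Finset.sum_range_succ']
    have : ∑ i ∈ Finset.range m, (m + 1 - (i + 1)) = ∑ i ∈ Finset.range m, (m - i) :=
      Finset.sum_congr rfl (fun i _ => by omega)
    rw [this, mul_add, ih]
    simp only [Nat.sub_zero]
    ring

theorem sum_stair (m : ℕ) : ∑ i ∈ Finset.range m, (m - i) = m * (m + 1) / 2 := by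
  have := two_mul_sum_stair m
  generalize m * (m + 1) = t at *
  omega

theorem sum_stair_of_le {m k : ℕ} (hk : m ≤ k) :
    ∑ i ∈ Finset.range k, (m - i) = m * (m + 1) / 2 := by
  rw [← sum_stair m]
  symm
  apply Finset.sum_subset (Finset.range_mono hk)
  intro i _ hi
  rw [Finset.mem_range] at hi
  omega

theorem lab_fiber {m : ℕ} (hm : 3 ≤ m) (k : ℕ) :
    ((staircase m).cells.filter (fun c => lab m c = k)).card = alphaMin m k := by
  unfold alphaMin
  by_cases h0 : k = 0
  · rw [if_pos h0]
    have : (staircase m).cells.filter (fun c => lab m c = k) =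
        ((Finset.range m).erase (m - 2)) ×ˢ {0} := by
      ext ⟨i, j⟩
      rw [Finset.mem_filter, mem_cells_staircase]
      simp only [Finset.mem_product, Finset.mem_erase,
        Finset.mem_range, Finset.mem_singleton, lab]
      split_ifs <;> omega
    rw [this, Finset.card_product, Finset.card_erase_of_mem (Finset.mem_range.mpr (by omega)),
      Finset.card_range, Finset.card_singleton]
    omega
  · rw [if_neg h0]
    by_cases h1 : k + 1 = m
    · rw [if_pos h1]
      have : (staircase m).cells.filter (fun c => lab m c = k) =
          {m - 2} ×ˢ Finset.range 2 := by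
        ext ⟨i, j⟩
        rw [Finset.mem_filter, mem_cells_staircase]
        simp only [Finset.mem_product,
          Finset.mem_range, Finset.mem_singleton, lab]
        split_ifs <;> omega
      rw [this, Finset.card_product, Finset.card_range, Finset.card_singleton]
    · rw [if_neg h1]
      have : (staircase m).cells.filter (fun c => lab m c = k) =
          {k - 1} ×ˢ Finset.Ico 1 (m - k + 1) := by
        ext ⟨i, j⟩
        rw [Finset.mem_filter, mem_cells_staircase]
        simp only [Finset.mem_product,
          Finset.mem_Ico, Finset.mem_singleton, lab]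
        split_ifs <;> omega
      rw [this, Finset.card_product, Nat.card_Ico, Finset.card_singleton]
      omega

theorem card_staircase {m : ℕ} (hm : 3 ≤ m) : (staircase m).card = m * (m + 1) / 2 := by
  unfold YoungDiagram.card
  rw [Finset.card_eq_sum_card_fiberwise (f := lab m) (t := Finset.range m)]
  · rw [Finset.sum_congr rfl (fun k _ => lab_fiber hm k)]
    have := sum_alphaMin hm m
    rw [if_neg (by omega), sum_stair] at this
    omega
  · intro c hc
    have hc' := mem_cells_staircase.mp hc
    simp only [Finset.coe_range, Set.mem_Iio, lab]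
    split_ifs <;> omega

theorem lab_fiber_transport {m : ℕ} {X : Type*} [Fintype X] [DecidableEq X]
    (e : Tableau (staircase m) X) (k : ℕ) :
    (Finset.univ.filter (fun x : X => lab m (e.symm x).1 = k)).card =
      ((staircase m).cells.filter (fun c => lab m c = k)).card := by
  refine Finset.card_bij (fun x _ => (e.symm x).1) ?_ ?_ ?_
  · intro x hx
    rw [Finset.mem_filter] at hx ⊢
    exact ⟨(e.symm x).2, hx.2⟩
  · intro x _ y _ h
    exact e.symm.injective (Subtype.ext h)
  · intro c hc
    rw [Finset.mem_filter] at hc
    refine ⟨e ⟨c, hc.1⟩, ?_, by simp⟩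
    rw [Finset.mem_filter]
    exact ⟨Finset.mem_univ _, by simpa using hc.2⟩

theorem stair_kron_pos {m : ℕ} (hm : 3 ≤ m) (mu : YoungDiagram)
    (hcard : mu.card = m * (m + 1) / 2) (hrows : mu.colLen 0 ≤ m)
    (hdom : ∀ k, ∑ i ∈ Finset.range k, (m - i) ≤ ∑ i ∈ Finset.range k, mu.rowLen i + 1) :
    0 < kron (m * (m + 1) / 2) (staircase m) (staircase m) mu := by
  let e : Tableau (staircase m) (Fin (m * (m + 1) / 2)) :=
    Finset.equivFinOfCardEq (card_staircase hm)
  have hα : ∀ k, (Finset.univ.filter
      (fun x : Fin (m * (m + 1) / 2) => lab m (e.symm x).1 = k)).card = alphaMin m k :=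
    fun k => (lab_fiber_transport e k).trans (lab_fiber hm k)
  obtain ⟨t3, ht3⟩ := exists_tableau_of_dominance mu (fun x => lab m (e.symm x).1)
    (by rw [hcard, Fintype.card_fin])
    (by
      simp only [hα]
      exact alphaMin_antitone hm)
    (by
      intro k
      simp only [hα]
      have h1 := sum_alphaMin hm k
      by_cases hk : k < m
      · have h2 := hdom k
        by_cases hk1 : 1 ≤ k
        · rw [if_pos ⟨hk1, hk⟩] at h1
          omega
        · have : k = 0 := by omega
          subst this
          simp
      · rw [if_neg (by omega), sum_stair_of_le (by omega)] at h1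
        rw [sum_rowLen mu (by omega), hcard]
        omega)
  exact stair_kron_of_tableau hm e t3 ht3

end Vale.Agent.P197
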