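import Vale.Agent.P197.StairPot
import Vale.Agent.P197.Column
import Vale.Agent.P197.Criterion

namespace Vale.Agent.P197

theorem mem_cells_staircase {m : ℕ} {c : ℕ × ℕ} : c ∈ (staircase m).cells ↔ c.1 + c.2 < m := by
  rw [YoungDiagram.mem_cells]
  exact mem_staircase

noncomputable def pos2Equiv (m : ℕ) (hm : 3 ≤ m) :
    {c : ℕ × ℕ // c ∈ (staircase m).cells} ≃ {c : ℕ × ℕ // c ∈ (staircase m).cells} :=
  Equiv.ofBijective
    (fun c => ⟨pos2 m c.1, mem_cells_staircase.mpr (pos2_mem hm (mem_cells_staircase.mp c.2))⟩)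
    (Finite.injective_iff_bijective.mp (by
      intro c c' h
      apply Subtype.ext
      exact pos2_inj hm (mem_cells_staircase.mp c.2) (mem_cells_staircase.mp c'.2)
        (congrArg Subtype.val h)))

theorem pos2Equiv_apply (m : ℕ) (hm : 3 ≤ m) (c : {c : ℕ × ℕ // c ∈ (staircase m).cells}) :
    (pos2Equiv m hm c).1 = pos2 m c.1 := rfl

variable {X : Type*} [Fintype X] [DecidableEq X]

theorem stair_H1 {m : ℕ} (hm : 3 ≤ m) (e : Tableau (staircase m) X) :
    ∀ g q1 q2 : Equiv.Perm X, q1 ∈ colGroup e →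
      q2 ∈ colGroup (μ := staircase m) ((pos2Equiv m hm).symm.trans e) →
      act g (rowOf e) = act q1 (rowOf e) →
      act g (rowOf (μ := staircase m) ((pos2Equiv m hm).symm.trans e)) =
        act q2 (rowOf (μ := staircase m) ((pos2Equiv m hm).symm.trans e)) →
      act g (fun x => lab m (e.symm x).1) = (fun x => lab m (e.symm x).1) ∧
        Equiv.Perm.sign q1 = Equiv.Perm.sign q2 := by
  have hc : ∀ x : X, (e.symm x).1.1 + (e.symm x).1.2 < m :=
    fun x => mem_cells_staircase.mp (e.symm x).2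
  have r2 : ∀ x : X, rowOf (μ := staircase m) ((pos2Equiv m hm).symm.trans e) x =
      (pos2 m (e.symm x).1).1 := fun x => rfl
  have c2 : ∀ x : X, colOf (μ := staircase m) ((pos2Equiv m hm).symm.trans e) x =
      (pos2 m (e.symm x).1).2 := fun x => rfl
  have r1 : ∀ x : X, rowOf e x = (e.symm x).1.1 := fun x => rfl
  have c1 : ∀ x : X, colOf e x = (e.symm x).1.2 := fun x => rfl
  apply H1_of_potential e ((pos2Equiv m hm).symm.trans e) (fun x => lab m (e.symm x).1)
    (F1 m) (F2 m) (fun x => UU m (e.symm x).1) (fun x => VV m (e.symm x).1)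
  · intro x z m1 m2
    rw [mem_staircase] at m1 m2
    simp only [r1, c1, r2, c2] at m1 m2 ⊢
    exact (pot_main hm (hc x) (hc z) m1 m2).1
  · intro x
    simp only [r1, c1, r2, c2]
    exact pot_self (hc x)
  · intro x z m1 m2
    rw [mem_staircase] at m1 m2
    simp only [r1, c1, r2, c2] at m1 m2 ⊢
    exact (pot_main hm (hc x) (hc z) m1 m2).2
  · intro x z hxz
    simp only [r1, c1, r2, c2]
    exact lab_bar (hc x) (hc z) hxz

theorem stair_kron_of_tableau {n m : ℕ} (hm : 3 ≤ m) {mu : YoungDiagram}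
    (e : Tableau (staircase m) (Fin n)) (t3 : Tableau mu (Fin n))
    (hstrict : ∀ x y, colOf t3 x = colOf t3 y → rowOf t3 x < rowOf t3 y →
      lab m (e.symm x).1 < lab m (e.symm y).1) :
    0 < kron n (staircase m) (staircase m) mu :=
  kron_pos_of_intertwiner
    (exists_intertwiner e ((pos2Equiv m hm).symm.trans e) t3 (fun x => lab m (e.symm x).1)
      (stair_H1 hm e) (H3_of_colStrict t3 _ hstrict))

end Vale.Agent.P197
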