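import Vale.Agent.P197.StairDefs

namespace Vale.Agent.P197

def nxt (m s : ℕ) : ℕ := if s + 4 ≤ m then s + 1 else if s + 3 = m then m - 1 else 0

def pos2 (m : ℕ) (c : ℕ × ℕ) : ℕ × ℕ :=
  if c.1 + 2 = m then (c.1, 1 - c.2) else if c.2 = 0 then (nxt m c.1, 0) else (c.1, m - c.1 - c.2)

def lab (m : ℕ) (c : ℕ × ℕ) : ℕ := if c.1 + 2 = m then m - 1 else if c.2 = 0 then 0 else c.1 + 1

def F1 (m a c : ℕ) : ℤ :=
  if a + 2 = m then (if c = 0 then 0 else (m : ℤ) ^ 2 + 1)
  else if c = 0 then ((a : ℤ) + 1) ^ 2 - 2 * ((a : ℤ) + 1) * ((m : ℤ) + 2) - 1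
  else -2 * ((a : ℤ) + 1) * ((c : ℤ) + 1)

def F2 (m b d : ℕ) : ℤ :=
  if b + 2 = m then (if d = 0 then -1 else 0) else -2 * ((b : ℤ) + 1) * ((d : ℤ) + 1)

def UU (m : ℕ) (x : ℕ × ℕ) : ℤ :=
  if x.1 + 2 = m then 0
  else if x.2 = 0 then F1 m x.1 0 + F2 m (nxt m x.1) 0
  else ((x.1 : ℤ) + 1) ^ 2 - 2 * ((x.1 : ℤ) + 1) * ((m : ℤ) + 3)

def VV (m : ℕ) (z : ℕ × ℕ) : ℤ :=
  if z.1 + 2 = m then (if z.2 = 0 then 0 else (m : ℤ) ^ 2)
  else if z.2 = 0 then 0 else ((z.1 : ℤ) + 1) ^ 2

theorem nxt_ne (m s : ℕ) (hm : 3 ≤ m) : nxt m s + 2 ≠ m := by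
  unfold nxt
  split_ifs <;> omega

theorem nxt_lt (m s : ℕ) (hm : 3 ≤ m) : nxt m s < m := by
  unfold nxt
  split_ifs <;> omega

theorem pos2_e {m i j : ℕ} (h : i + 2 = m) : pos2 m (i, j) = (i, 1 - j) := by
  simp [pos2, h]

theorem pos2_q {m i : ℕ} (h : i + 2 ≠ m) : pos2 m (i, 0) = (nxt m i, 0) := by
  simp [pos2, h]

theorem pos2_p {m i j : ℕ} (h : i + 2 ≠ m) (hj : j ≠ 0) : pos2 m (i, j) = (i, m - i - j) := by
  simp [pos2, h, hj]

theorem pos2_mem {m : ℕ} (hm : 3 ≤ m) {c : ℕ × ℕ} (hc : c.1 + c.2 < m) :
    (pos2 m c).1 + (pos2 m c).2 < m := by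
  obtain ⟨i, j⟩ := c
  simp only at hc
  by_cases h : i + 2 = m
  · rw [pos2_e h]
    simp only
    omega
  · by_cases hj : j = 0
    · subst hj
      rw [pos2_q h]
      simpa using nxt_lt m i hm
    · rw [pos2_p h hj]
      simp only
      omega

theorem nxt_inj {m s s' : ℕ} (hs : s < m) (hs' : s' < m) (h : s + 2 ≠ m) (h' : s' + 2 ≠ m)
    (heq : nxt m s = nxt m s') : s = s' := by
  unfold nxt at heq
  split_ifs at heq <;> omega

theorem pos2_inj {m : ℕ} (hm : 3 ≤ m) {c c' : ℕ × ℕ} (hc : c.1 + c.2 < m) (hc' : c'.1 + c'.2 < m)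
    (heq : pos2 m c = pos2 m c') : c = c' := by
  obtain ⟨i, j⟩ := c
  obtain ⟨i', j'⟩ := c'
  simp only at hc hc'
  by_cases h : i + 2 = m
  · rw [pos2_e h] at heq
    by_cases h' : i' + 2 = m
    · rw [pos2_e h'] at heq
      simp only [Prod.mk.injEq] at heq ⊢
      omega
    · by_cases hj' : j' = 0
      · subst hj'
        rw [pos2_q h'] at heq
        simp only [Prod.mk.injEq] at heq
        have := nxt_ne m i' hm
        omega
      · rw [pos2_p h' hj'] at heq
        simp only [Prod.mk.injEq] at heq
        omega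
  · by_cases hj : j = 0
    · subst hj
      rw [pos2_q h] at heq
      by_cases h' : i' + 2 = m
      · rw [pos2_e h'] at heq
        simp only [Prod.mk.injEq] at heq
        have := nxt_ne m i hm
        omega
      · by_cases hj' : j' = 0
        · subst hj'
          rw [pos2_q h'] at heq
          simp only [Prod.mk.injEq] at heq ⊢
          exact ⟨nxt_inj (by omega) (by omega) h h' heq.1, trivial⟩
        · rw [pos2_p h' hj'] at heq
          simp only [Prod.mk.injEq] at heq
          omega
    · rw [pos2_p h hj] at heq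
      by_cases h' : i' + 2 = m
      · rw [pos2_e h'] at heq
        simp only [Prod.mk.injEq] at heq
        omega
      · by_cases hj' : j' = 0
        · subst hj'
          rw [pos2_q h'] at heq
          simp only [Prod.mk.injEq] at heq
          omega
        · rw [pos2_p h' hj'] at heq
          simp only [Prod.mk.injEq] at heq ⊢
          omega

theorem lab_bar {m : ℕ} {c c' : ℕ × ℕ} (hc : c.1 + c.2 < m) (hc' : c'.1 + c'.2 < m)
    (heq : lab m c = lab m c') :
    (c.1 = c'.1 ∧ (pos2 m c).1 = (pos2 m c').1) ∨ (c.2 = c'.2 ∧ (pos2 m c).2 = (pos2 m c').2) := by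
  obtain ⟨i, j⟩ := c
  obtain ⟨i', j'⟩ := c'
  simp only at hc hc'
  unfold lab at heq
  simp only at heq
  by_cases h : i + 2 = m
  · by_cases h' : i' + 2 = m
    · left
      rw [pos2_e h, pos2_e h']
      simp only
      omega
    · rw [if_pos h, if_neg h'] at heq
      split_ifs at heq <;> omega
  · by_cases h' : i' + 2 = m
    · rw [if_neg h, if_pos h'] at heq
      split_ifs at heq <;> omega
    · rw [if_neg h, if_neg h'] at heq
      by_cases hj : j = 0
      · by_cases hj' : j' = 0
        · right
          subst hj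
          subst hj'
          rw [pos2_q h, pos2_q h']
          simp
        · rw [if_pos hj, if_neg hj'] at heq
          omega
      · by_cases hj' : j' = 0
        · rw [if_neg hj, if_pos hj'] at heq
          omega
        · rw [if_neg hj, if_neg hj'] at heq
          left
          rw [pos2_p h hj, pos2_p h' hj']
          simp only
          omega

theorem neg_helper {L R : ℤ} {P : Prop} (h : L < R) : L ≤ R ∧ (L = R → P) :=
  ⟨h.le, fun e => absurd e h.ne⟩

theorem pot_main {m : ℕ} (hm : 3 ≤ m) {x z : ℕ × ℕ} (hx : x.1 + x.2 < m) (hz : z.1 + z.2 < m)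
    (h1 : x.1 + z.2 < m) (h2 : (pos2 m x).1 + (pos2 m z).2 < m) :
    F1 m x.1 z.2 + F2 m (pos2 m x).1 (pos2 m z).2 ≤ UU m x + VV m z ∧
    (F1 m x.1 z.2 + F2 m (pos2 m x).1 (pos2 m z).2 = UU m x + VV m z → lab m x = lab m z) := by
  obtain ⟨i, j⟩ := x
  obtain ⟨i', j'⟩ := z
  simp only at hx hz h1 h2 ⊢
  by_cases h : i + 2 = m
  · rw [pos2_e h] at h2 ⊢
    simp only at h2 ⊢
    by_cases h' : i' + 2 = m
    · rw [pos2_e h'] at h2 ⊢
      simp only at h2 ⊢
      have hl : lab m (i, j) = lab m (i', j') := by simp [lab, h, h']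
      by_cases hj' : j' = 0
      · subst hj'
        simp [F1, F2, UU, VV, h, h', hl]
      · have : j' = 1 := by omega
        subst this
        simp [F1, F2, UU, VV, h, h', hl]
    · by_cases hj' : j' = 0
      · subst hj'
        rw [pos2_q h'] at h2 ⊢
        apply neg_helper
        simp [F1, F2, UU, VV, h, h']
      · rw [pos2_p h' hj'] at h2 ⊢
        simp only at h2
        omega
  · by_cases hj : j = 0
    · subst hj
      rw [pos2_q h] at h2 ⊢
      simp only at h2 ⊢
      have hn := nxt_ne m i hm
      by_cases h' : i' + 2 = m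
      · rw [pos2_e h'] at h2 ⊢
        simp only at h2 ⊢
        apply neg_helper
        by_cases hj' : j' = 0
        · subst hj'
          simp only [F1, F2, UU, VV, h, h', hn, if_true, if_false]
          simp
          have : (0 : ℤ) ≤ (nxt m i : ℤ) := Int.natCast_nonneg _
          linarith
        · have hj1 : j' = 1 := by omega
          subst hj1
          simp only [F1, F2, UU, VV, h, h', hn, if_true, if_false]
          simp
          have hmi : (i : ℤ) + 3 ≤ m := by
            have : i + 3 ≤ m := by omega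
            exact_mod_cast this
          nlinarith
      · by_cases hj' : j' = 0
        · subst hj'
          rw [pos2_q h'] at h2 ⊢
          have hl : lab m (i, 0) = lab m (i', 0) := by simp [lab, h, h']
          simp [UU, VV, h, h', hl]
        · rw [pos2_p h' hj'] at h2 ⊢
          simp only at h2 ⊢
          apply neg_helper
          obtain ⟨d, hd⟩ : ∃ d, m - i' - j' = d := ⟨_, rfl⟩
          rw [hd] at h2 ⊢
          have hd0 : d ≠ 0 := by omega
          have hmz : (m : ℤ) = i' + j' + d := by
            have : m = i' + j' + d := by omega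
            exact_mod_cast this
          have hd1 : (1 : ℤ) ≤ d := by
            have : 1 ≤ d := by omega
            exact_mod_cast this
          simp only [F1, F2, UU, VV, h, h', hn, hj', hd0, if_true, if_false]
          simp
          unfold nxt at h2 ⊢
          split_ifs at h2 ⊢ with c1 c2
          · push_cast
            nlinarith [sq_nonneg ((i : ℤ) - i')]
          · omega
          · omega
    · rw [pos2_p h hj] at h2 ⊢
      simp only at h2 ⊢
      by_cases h' : i' + 2 = m
      · rw [pos2_e h'] at h2 ⊢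
        simp only at h2 ⊢
        apply neg_helper
        by_cases hj' : j' = 0
        · subst hj'
          simp only [F1, F2, UU, VV, h, h', hj, if_true, if_false]
          simp
          have : (0 : ℤ) ≤ (i : ℤ) := Int.natCast_nonneg _
          nlinarith
        · have hj1 : j' = 1 := by omega
          subst hj1
          simp only [F1, F2, UU, VV, h, h', hj, if_true, if_false]
          simp
          have hmi : (i : ℤ) + 2 ≤ m := by
            have : i + 2 ≤ m := by omega
            exact_mod_cast this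
          nlinarith
      · by_cases hj' : j' = 0
        · subst hj'
          rw [pos2_q h'] at h2 ⊢
          apply neg_helper
          simp only [F1, F2, UU, VV, h, h', hj, if_true, if_false]
          simp
          nlinarith
        · rw [pos2_p h' hj'] at h2 ⊢
          simp only at h2 ⊢
          obtain ⟨d, hd⟩ : ∃ d, m - i' - j' = d := ⟨_, rfl⟩
          rw [hd] at h2 ⊢
          have hd0 : d ≠ 0 := by omega
          have hmz : (m : ℤ) = i' + j' + d := by
            have : m = i' + j' + d := by omega
            exact_mod_cast this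
          simp only [F1, F2, UU, VV, lab, h, h', hj, hj', hd0, if_true, if_false]
          have key : ((i : ℤ) + 1) ^ 2 - 2 * ((i : ℤ) + 1) * ((m : ℤ) + 3) + ((i' : ℤ) + 1) ^ 2 -
              (-2 * ((i : ℤ) + 1) * ((j' : ℤ) + 1) + -2 * ((i : ℤ) + 1) * ((d : ℤ) + 1)) =
              ((i : ℤ) - i') ^ 2 := by
            rw [hmz]
            ring
          constructor
          · nlinarith [sq_nonneg ((i : ℤ) - i')]
          · intro he
            have h0 : ((i : ℤ) - i') ^ 2 = 0 := by rw [← key]; linarith
            have h00 : (i : ℤ) - i' = 0 := by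
              exact pow_eq_zero_iff (two_ne_zero) |>.mp h0
            have : (i : ℤ) = i' := by linarith
            have : i = i' := by exact_mod_cast this
            omega

theorem pot_self {m : ℕ} {x : ℕ × ℕ} (hx : x.1 + x.2 < m) :
    F1 m x.1 x.2 + F2 m (pos2 m x).1 (pos2 m x).2 = UU m x + VV m x := by
  obtain ⟨i, j⟩ := x
  simp only at hx ⊢
  by_cases h : i + 2 = m
  · rw [pos2_e h]
    by_cases hj : j = 0
    · subst hj
      simp [F1, F2, UU, VV, h]
    · have : j = 1 := by omega
      subst this
      simp [F1, F2, UU, VV, h]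
  · by_cases hj : j = 0
    · subst hj
      rw [pos2_q h]
      simp [UU, VV, h]
    · rw [pos2_p h hj]
      simp only
      obtain ⟨d, hd⟩ : ∃ d, m - i - j = d := ⟨_, rfl⟩
      rw [hd]
      have hd0 : d ≠ 0 := by omega
      have hmz : (m : ℤ) = i + j + d := by
        have : m = i + j + d := by omega
        exact_mod_cast this
      simp only [F1, F2, UU, VV, h, hj, hd0, if_true, if_false]
      rw [hmz]
      ring

end Vale.Agent.P197
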